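import Crest.Agent.R166.LS.Loc

/-! Row 166, block LS (owner helper10): the adjacency matrices of switched and glued pairings. -/

set_option autoImplicit false
set_option linter.unusedSectionVars false

open Complex Matrix
open scoped BigOperators

noncomputable section

namespace Crest.Agent.R166

variable {V : Type} [Fintype V] [DecidableEq V] {q : ℕ} {s : ℝ} {z : ℂ}

theorem ls_invol (σ : Pairing V q) (h : HE V q) : σ (σ h) = h := (σ.2 h).1

theorem ls_adj (σ : Pairing V q) : adj σ = ∑ h : HE V q, single h.1 (σ h).1 (1 : ℝ) := by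
  ext u v
  rw [Matrix.sum_apply, Fintype.sum_prod_type, Finset.sum_eq_single u (fun a _ ha => by simp [ha]) (by simp)]
  simp [adj, single_apply]

theorem ls_adj_symm (σ : Pairing V q) : (adj σ).IsSymm := by
  rw [Matrix.IsSymm, ls_adj, transpose_sum, ← Equiv.sum_comp σ.1]
  simp only [transpose_single, ls_invol]

theorem ls_Hm_symm (s : ℝ) (c : Cfg V q) : (Hm s c).IsSymm := (ls_adj_symm c.1).add (isSymm_diagonal _)

theorem ls_edgeM (σ : Pairing V q) (h : HE V q) : edgeM σ h = eM h.1 (σ h).1 := rfl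

theorem ls_Hc_symm (s : ℝ) (c : Cfg V q) (u v : V) : (Hm s c - eM u v).IsSymm :=
  (ls_Hm_symm s c).sub (eM_symm u v)

theorem ls_Gc (c : Cfg V q) (h : HE V q) : Gc s z c h = Gr (Hm s c - eM h.1 (c.1 h).1) z := rfl

theorem ls_Yc' (c : Cfg V q) (h : HE V q) : Yc s z c (c.1 h) = Gc s z c h (c.1 h).1 (c.1 h).1 := by
  rw [Yc, ls_Gc, ls_Gc, ls_invol, eM_comm]

theorem ls_dec (e : ℝ) (c : Cfg V q) (h : HE V q) : dec s z e c h ↔ ‖Gc s z c h h.1 (c.1 h).1‖ ^ 2 ≤
    e ^ 2 * ((Gc s z c h h.1 h.1).im * (Gc s z c h (c.1 h).1 (c.1 h).1).im) := by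
  rw [dec, ls_Yc', Yc]

theorem ls_good (T e : ℝ) (c : Cfg V q) (h : HE V q) :
    good s z T e c h ↔ goodM T e (Gr (Hm s c - eM h.1 (c.1 h).1) z) h.1 (c.1 h).1 := by
  rw [good, ls_dec, ls_Yc', Yc]
  rfl

theorem ls_sum_fst (φ : V → ℝ) : ∑ h : HE V q, φ h.1 = (q + 1) * ∑ v, φ v := by
  simp [Fintype.sum_prod_type, Finset.mul_sum]

theorem ls_sum_snd (σ : Pairing V q) (φ : V → ℝ) : ∑ h : HE V q, φ (σ h).1 = (q + 1) * ∑ v, φ v := by
  rw [← ls_sum_fst, ← Equiv.sum_comp σ.1 fun h => φ h.1]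

theorem ls_row (hs : 0 ≤ s) (hs' : s ≤ 1) (c : Cfg V q) (a b u : V) : ∑ v, |(Hm s c - eM a b) u v| ≤ q + 4 := by
  have h1 : ∑ v, adj c.1 u v = q + 1 := by
    simp only [adj, Finset.card_filter, Nat.cast_sum]
    rw [Finset.sum_comm]
    simp
  have h2 : ∀ a b : V, ∑ v, single a b (1 : ℝ) u v ≤ 1 := fun a b => by
    simp only [single_apply, ite_and]
    split_ifs <;> simp
  have h3 : |s * (c.2 u : ℝ)| ≤ 1 := by
    rw [abs_mul, abs_of_nonneg hs]
    exact mul_le_one₀ hs' (abs_nonneg _) (abs_le.2 (c.2 u).2)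
  calc _ ≤ ∑ v, (adj c.1 u v + (if u = v then |s * (c.2 u : ℝ)| else 0) + single a b (1 : ℝ) u v +
        single b a (1 : ℝ) u v) := Finset.sum_le_sum fun v _ => by
        have : 0 ≤ adj c.1 u v := Nat.cast_nonneg _
        have := le_abs_self (s * (c.2 u : ℝ))
        have := neg_abs_le (s * (c.2 u : ℝ))
        simp only [Hm, eM, Matrix.sub_apply, Matrix.add_apply, diagonal_apply, single_apply, abs_le]
        split_ifs <;> constructor <;> linarith
    _ ≤ _ := by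
      simp only [Finset.sum_add_distrib, h1, Finset.sum_ite_eq, Finset.mem_univ, if_true]
      linarith [h2 a b, h2 b a]

theorem ls_switch (σ : Pairing V q) (a b h : HE V q) : switch σ a b h = Equiv.swap a b (σ (Equiv.swap a b h)) := rfl

theorem ls_ne (σ : Pairing V q) {a b : HE V q} (h : a ≠ σ b) : σ a ≠ b := fun h' => h (by rw [← h', ls_invol])

theorem ls_switch_of_ne (σ : Pairing V q) {a b h : HE V q} (h1 : h ≠ a) (h2 : h ≠ b) (h3 : h ≠ σ a) (h4 : h ≠ σ b) :
    switch σ a b h = σ h := by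
  rw [ls_switch, Equiv.swap_apply_of_ne_of_ne h1 h2, Equiv.swap_apply_of_ne_of_ne (ls_ne σ h3) (ls_ne σ h4)]

/-- a nonzero entry comes from a half-edge at which the two pairings differ -/
theorem ls_switch_supp (s : ℝ) (c : Cfg V q) (a b : HE V q) :
    Supp ({a.1, b.1, (c.1 a).1, (c.1 b).1} : Finset V) (Hm s (switchC c a b) - Hm s c) := by
  refine ⟨(ls_Hm_symm _ _).sub (ls_Hm_symm _ _), fun u v huv => by_contra fun hu => huv ?_⟩
  simp only [Finset.coe_insert, Finset.coe_singleton, Set.mem_insert_iff, Set.mem_singleton_iff, not_or] at hu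
  have : ∀ i, switch c.1 a b (u, i) = c.1 (u, i) := fun i => ls_switch_of_ne _ (fun h => hu.1 (congrArg Prod.fst h))
    (fun h => hu.2.1 (congrArg Prod.fst h)) (fun h => hu.2.2.1 (congrArg Prod.fst h))
    fun h => hu.2.2.2 (congrArg Prod.fst h)
  simp [Hm, switchC, adj, this]

theorem ls_sum_off {α β M : Type} [Fintype α] [Fintype β] [AddCommGroup M] {f g : α → M} {a : β → α}
    (ha : Function.Injective a) (h : ∀ x, (∀ y, x ≠ a y) → f x = g x) :
    ∑ x, f x = ∑ x, g x - ∑ y, g (a y) + ∑ y, f (a y) := by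
  classical
  rw [← Finset.sum_image (s := Finset.univ) (f := g) ha.injOn, ← Finset.sum_image (s := Finset.univ) (f := f) ha.injOn,
    ← Finset.sum_add_sum_compl (Finset.univ.image a) f, ← Finset.sum_add_sum_compl (Finset.univ.image a) g,
    Finset.sum_congr rfl (s₁ := (Finset.univ.image a)ᶜ) fun x hx => h x fun y hy => by simp [hy] at hx]
  abel

theorem ls_repair (c : Cfg V q) {a b : HE V q} (h1 : b ≠ a) (h2 : b ≠ c.1 a) :
    switch c.1 a (c.1 b) a = b ∧ switch c.1 a (c.1 b) (c.1 a) = c.1 b ∧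
      Hm s (switchC c a (c.1 b)) + -eM a.1 b.1 + -eM (c.1 a).1 (c.1 b).1 =
        Hm s c + -eM b.1 (c.1 b).1 + -eM a.1 (c.1 a).1 := by
  have n1 : c.1 a ≠ a := (c.1.2 a).2
  have n2 : c.1 b ≠ b := (c.1.2 b).2
  have n3 : c.1 a ≠ c.1 b := fun h => h1 (c.1.1.injective h).symm
  have n4 := ls_ne c.1 h2
  have e1 : switch c.1 a (c.1 b) a = b := by
    rw [ls_switch, Equiv.swap_apply_left, ls_invol, Equiv.swap_apply_of_ne_of_ne h1 n2.symm]
  have e2 : switch c.1 a (c.1 b) (c.1 a) = c.1 b := by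
    rw [ls_switch, Equiv.swap_apply_of_ne_of_ne n1 n3, ls_invol, Equiv.swap_apply_left]
  have e3 : switch c.1 a (c.1 b) b = a := by
    have := ls_invol (switch c.1 a (c.1 b)) a
    rwa [e1] at this
  have e4 : switch c.1 a (c.1 b) (c.1 b) = c.1 a := by
    have := ls_invol (switch c.1 a (c.1 b)) (c.1 a)
    rwa [e2] at this
  refine ⟨e1, e2, ?_⟩
  have hi : Function.Injective ![a, b, c.1 a, c.1 b] := by
    intro i j
    fin_cases i <;> fin_cases j <;> simp [h1, h2, n1, n2, n3, n4, h1.symm, h2.symm, n1.symm, n2.symm, n3.symm, n4.symm]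
  rw [Hm, Hm, switchC, ls_adj, ls_adj, ls_sum_off (g := fun h => single h.1 (c.1 h).1 (1 : ℝ)) hi fun x hx => by
    rw [ls_switch_of_ne c.1 (a := a) (b := c.1 b) (hx 0) (hx 3) (hx 2) ((ls_invol _ b).symm ▸ hx 1)]]
  simp only [Fin.sum_univ_four, cons_val_zero, cons_val_one, cons_val, e1, e2, e3, e4, ls_invol, eM]
  abel

theorem ls_eM_inl {W : Type} [Fintype W] [DecidableEq W] (H : Matrix V V ℝ) (D : Matrix W W ℝ) (u v : V) :
    fromBlocks H 0 0 D - eM (Sum.inl u) (Sum.inl v) = fromBlocks (H - eM u v) 0 0 D := by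
  ext (a | a) (b | b) <;> simp [eM, single_apply]

theorem ls_eM_inl_sum {W α : Type} [Fintype W] [DecidableEq W] (H : Matrix V V ℝ) (D : Matrix W W ℝ) (t : Finset α)
    (u v : α → V) : fromBlocks (H - ∑ j ∈ t, eM (u j) (v j)) 0 0 D =
      fromBlocks H 0 0 D - ∑ j ∈ t, eM (Sum.inl (u j)) (Sum.inl (v j)) := by
  ext (a | a) (b | b) <;> simp [eM, single_apply, Matrix.sum_apply]

theorem ls_glue_inl (hK : StKit) (σ : Pairing V q) {α : Fin (q + 1) → HE V q} (hα : Disj σ α) (j : Fin (q + 1)) :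
    glue σ α (inlH (α j)) = (Sum.inr 1, j) ∧ glue σ α (inlH (σ (α j))) = (Sum.inr 0, j) := by
  obtain ⟨g0, g1, -⟩ := hK.glue_spec q V σ α hα
  rw [← g0, ← g1, ls_invol, ls_invol]
  exact ⟨rfl, rfl⟩

theorem ls_disj_inj {σ : Pairing V q} {α : Fin (q + 1) → HE V q} (hα : Disj σ α) :
    Function.Injective (Sum.elim α fun j => σ (α j)) := by
  rintro (i | i) (j | j) h <;> simp only [Sum.elim_inl, Sum.elim_inr] at h
  · exact congrArg _ (by_contra fun hij => (hα i j hij).1 h)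
  · by_cases hij : i = j
    · exact ((σ.2 (α j)).2 (hij ▸ h.symm)).elim
    · exact ((hα i j hij).2 h).elim
  · by_cases hij : j = i
    · exact ((σ.2 (α j)).2 (hij ▸ h)).elim
    · exact ((hα j i hij).2 h.symm).elim
  · exact congrArg _ (by_contra fun hij => (hα i j hij).1 (σ.1.injective h))

/-- `ls_adj`; `a (j, 0) = α j`, `a (j, 1) = σ (α j)` is injective, `glue (inlH (a (j, t))) = (inr t.rev, j)` -/
theorem ls_glue (hK : StKit) (c : Cfg V q) {α : Fin (q + 1) → HE V q} (w : Fin 2 → II) (hα : Disj c.1 α) :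
    Hm s (glueC c α w) =
      fromBlocks (Hm s c - ∑ j, eM (α j).1 (c.1 (α j)).1) 0 0 (diagonal fun o => s * (w o : ℝ)) +
        ∑ j, eM (Sum.inr 1) (Sum.inl (α j).1) + ∑ j, eM (Sum.inr 0) (Sum.inl (c.1 (α j)).1) := by
  obtain ⟨g0, g1, g2⟩ := hK.glue_spec q V c.1 α hα
  have e1 : fromBlocks (Hm s c) 0 0 (diagonal fun o => s * (w o : ℝ)) =
      ∑ h : HE V q, single (Sum.inl h.1) (Sum.inl (c.1 h).1) (1 : ℝ) +
        diagonal fun v => s * (Sum.elim c.2 w v : II) := by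
    rw [Hm, ls_adj]
    ext (a | a) (b | b) <;> simp [single_apply, Matrix.sum_apply, diagonal_apply]
  have e2 := ls_sum_off (f := fun h => single (Sum.inl h.1 : V ⊕ Fin 2) (glue c.1 α (inlH h)).1 (1 : ℝ))
    (g := fun h => single (Sum.inl h.1) (Sum.inl (c.1 h).1) (1 : ℝ)) (ls_disj_inj hα) fun x hx => by
      rw [g2 x fun j => ⟨hx (.inl j), hx (.inr j)⟩]
      rfl
  rw [ls_eM_inl_sum, e1, Hm, glueC, ls_adj, Fintype.sum_prod_type, Fintype.sum_sum_type, ← Fintype.sum_prod_type']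
  erw [e2]
  simp only [Fintype.sum_sum_type, Fin.sum_univ_two, Sum.elim_inl, Sum.elim_inr, g0, g1, ls_glue_inl hK c.1 hα,
    ls_invol, eM, Finset.sum_add_distrib]
  simp only [inlH]
  abel

theorem ls_glue_supp (hK : StKit) (c : Cfg V q) {α : Fin (q + 1) → HE V q} (w : Fin 2 → II) (hα : Disj c.1 α) :
    ∃ S : Finset (V ⊕ Fin 2), S.card ≤ 2 * q + 4 ∧
      Supp S (Hm s (glueC c α w) - fromBlocks (Hm s c) 0 0 (diagonal fun o => s * (w o : ℝ))) := by
  let p : (Fin (q + 1) ⊕ Fin (q + 1)) ⊕ Fin 2 → V ⊕ Fin 2 :=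
    Sum.map (Sum.elim (fun j => (α j).1) fun j => (c.1 (α j)).1) id
  have hp : ∀ x, p x ∈ (Finset.univ.image p : Set (V ⊕ Fin 2)) := fun x => by simp
  refine ⟨Finset.univ.image p, Finset.card_image_le.trans_eq (by simp; ring), ?_⟩
  rw [ls_glue hK c w hα, ls_eM_inl_sum, sub_eq_add_neg _ (Finset.sum ..), add_assoc, add_assoc, add_sub_cancel_left]
  exact (Supp.sum fun j _ => Supp.eM (hp (.inl (.inl j))) (hp (.inl (.inr j)))).neg.add
    ((Supp.sum fun j _ => Supp.eM (hp (.inr 1)) (hp (.inl (.inl j)))).add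
      (Supp.sum fun j _ => Supp.eM (hp (.inr 0)) (hp (.inl (.inr j)))))

end Crest.Agent.R166
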