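import Crest.Agent.R166.LS.Graph

/-! Row 166, block LS (owner helper10): `StGL`. -/

set_option autoImplicit false
set_option linter.unusedSectionVars false

open Complex Matrix
open scoped BigOperators

noncomputable section

namespace Crest.Agent.R166

variable {ι D : Type} [Fintype ι] [DecidableEq ι] [Fintype D] [DecidableEq D]

theorem ls_star (M N : Matrix ι ι ℂ) (o : ι) (c : D → ι) (Cs : Finset D) (x y : ι) :
    (M * cx (∑ j ∈ Cs, eM o (c j)) * N) x y = ∑ j ∈ Cs, (M x o * N (c j) y + M x (c j) * N o y) := by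
  have e1 : cx (∑ j ∈ Cs, eM o (c j)) = ∑ j ∈ Cs, (single o (c j) 1 + single (c j) o 1) := by
    ext a b
    simp [Matrix.sum_apply, eM, single_apply, apply_ite ((↑) : ℝ → ℂ)]
  have e2 : ∀ a b, (M * single a b (1 : ℂ) * N) x y = M x a * N b y := fun a b => by
    rw [mul_apply, Finset.sum_eq_single b (fun k _ hk => by simp [hk]) (by simp)]
    simp
  simp only [e1, Matrix.mul_sum, Matrix.sum_mul, Matrix.sum_apply, mul_add, add_mul, Matrix.add_apply, e2]

theorem Sieg.sum_im {B : Matrix ι ι ℂ} (hB : Sieg B) (c : D → ι) (t : Finset D) :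
    0 ≤ (∑ j ∈ t, ∑ k ∈ t, B (c j) (c k)).im := by
  simpa [imq, dotProduct, mulVec, apply_ite (star : ℂ → ℂ)] using (hB.sub c).2 fun j => if j ∈ t then 1 else 0

/-- Attach first `J₁` (which does not touch `o` and the `c j`), then the star from `o` to the `c j`, `j ∈ Cs`. -/
theorem ls_attach {A₀ A₁ A₂ B₀ : Matrix ι ι ℂ} {J₁ : Matrix ι ι ℝ} {δ : ℝ} {o : ι} {c : D → ι} {J Cs : Finset D}
    {W : ℂ} {Y : D → ℂ} (hc : Function.Injective c) (ho : ∀ j, c j ≠ o) (hW : 0 < W.im)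
    (h1 : Rel (cx J₁) A₀ A₁) (h2 : Rel (cx (∑ j ∈ Cs, eM o (c j))) A₁ A₂) (hcl : Close δ A₀ B₀) (hB : Sieg B₀)
    (hJo : ∀ i, J₁ o i = 0) (hJc : ∀ j i, J₁ (c j) i = 0) (hBo : ∀ i, B₀ o i = if i = o then -W⁻¹ else 0)
    (hBc : ∀ j ∈ J, ∀ i, B₀ (c j) i = if i = c j then Y j else 0) :
    ∃ (B₂ : Matrix ι ι ℂ) (r : ℂ), Sieg B₂ ∧ Close δ A₂ B₂ ∧ 0 ≤ r.im ∧ (Cs ⊆ J → r = 0) ∧
      B₂ o o = -(W + r + ∑ j ∈ J ∩ Cs, Y j)⁻¹ ∧
      ∀ j ∈ J ∩ Cs, ∀ i, B₂ (c j) i = (if i = c j then Y j else 0) - Y j * B₂ o i := by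
  obtain ⟨B₁, r1⟩ := h1.exists hcl hB.1
  obtain ⟨B₂, r2⟩ := h2.exists (h1.close r1 hcl) r1.sA'
  have row : ∀ x, (∀ i, J₁ x i = 0) → (∀ i, i ≠ x → B₀ x i = 0) → ∀ i, B₁ x i = B₀ x i := fun x hx hx' i => by
    rw [r1.row hx', mul_apply]
    simp [hx]
  have b0 : ∀ i, B₁ o i = if i = o then -W⁻¹ else 0 := fun i =>
    (row o hJo (fun i hi => (hBo i).trans (if_neg hi)) i).trans (hBo i)
  have b1 : ∀ j ∈ J, ∀ i, B₁ (c j) i = if i = c j then Y j else 0 := fun j hj i =>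
    (row _ (hJc j) (fun i hi => (hBc j hj i).trans (if_neg hi)) i).trans (hBc j hj i)
  have b2 : ∀ j, B₁ (c j) o = 0 := fun j => by rw [r1.sA'.apply, b0, if_neg (ho j)]
  have E := fun x y => congrFun (congrFun r2.eq' x) y
  simp only [Matrix.add_apply, ls_star] at E
  have b3 : ∀ j ∈ J ∩ Cs, ∑ k ∈ Cs, B₁ (c j) (c k) = Y j := fun j hj => by
    rw [Finset.mem_inter] at hj
    simp [b1 j hj.1, hc.eq_iff, hj.2]
  refine ⟨B₂, ∑ j ∈ Cs \ J, ∑ k ∈ Cs \ J, B₁ (c j) (c k), r2.sieg (r1.sieg hB), h2.close r2 (h1.close r1 hcl),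
    (r1.sieg hB).sum_im _ _, fun h => by simp [Finset.sdiff_eq_empty_iff_subset.2 h], ?_, fun j hj i => ?_⟩
  · have e1 : ∑ j ∈ Cs \ J, ∑ k ∈ Cs \ J, B₁ (c j) (c k) + ∑ j ∈ J ∩ Cs, Y j = ∑ j ∈ Cs, ∑ k ∈ Cs, B₁ (c j) (c k) := by
      rw [← Finset.sum_congr rfl b3, ← Finset.sum_inter_add_sum_sdiff Cs J fun j => ∑ k ∈ Cs, _, add_comm,
        Finset.inter_comm]
      congr 1
      refine Finset.sum_congr rfl fun j hj => Finset.sum_subset Finset.sdiff_subset fun k hk hk' => ?_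
      have hkJ : k ∈ J := by simpa [hk] using hk'
      rw [r1.sA'.apply, b1 k hkJ, if_neg fun h : c j = c k => (Finset.mem_sdiff.1 hj).2 (hc h ▸ hkJ)]
    have e2 : ∑ j ∈ Cs, B₂ (c j) o = -((∑ j ∈ Cs, ∑ k ∈ Cs, B₁ (c j) (c k)) * B₂ o o) := by
      rw [Finset.sum_mul, ← Finset.sum_neg_distrib]
      refine Finset.sum_congr rfl fun j _ => ?_
      have := E (c j) o
      simp only [b2, zero_mul, zero_add, ← Finset.sum_mul] at this
      exact eq_neg_of_add_eq_zero_left this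
    have e3 := E o o
    simp only [b0, ho, if_true, if_false, zero_mul, add_zero, ← Finset.mul_sum, e2] at e3
    have hW' : W ≠ 0 := fun h => by simp [h] at hW
    rw [add_assoc, e1, ← neg_eq_iff_eq_neg]
    refine eq_inv_of_mul_eq_one_left ?_
    field_simp at e3
    linear_combination -e3
  · have := E (c j) i
    simp only [b2, zero_mul, zero_add, ← Finset.sum_mul, b3 j hj, b1 j (Finset.mem_inter.1 hj).1 i] at this
    exact eq_sub_of_add_eq this

variable {V : Type} [Fintype V] [DecidableEq V] {q : ℕ} {s ε e : ℝ} {z : ℂ}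

/-- the ends of the edges `α j` -/
def lsP (c : Cfg V q) (α : Fin (q + 1) → HE V q) (x : Fin (q + 1) × Fin 2) : V := ![(α x.1).1, (c.1 (α x.1)).1] x.2

/-- `ls_loc` with the blocks `β (j, t) = if j ∈ J then some j else none`, then `bdF_close` with `ls_close_diag` -/
theorem ls_cut (c : Cfg V q) {α : Fin (q + 1) → HE V q} {J : Finset (Fin (q + 1))} (hz : 0 < z.im) (h0 : 0 ≤ ε)
    (h1 : ε ≤ 1 / (2 * (q + 2))) (he : 0 ≤ e) (he' : e ≤ 1 / 10) (hS : Sep s z c α J ε e) :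
    ∃ B : Matrix (Fin (q + 1) × Fin 2) (Fin (q + 1) × Fin 2) ℂ, Sieg B ∧
      Close ((4 * q + 8) * (ε + e))
        ((Gr (Hm s c - ∑ j, eM (α j).1 (c.1 (α j)).1) z).submatrix (lsP c α) (lsP c α)) B ∧
      ∀ j ∈ J, ∀ i, B (j, 1) i = if i = (j, 1) then Yc s z c (c.1 (α j)) else 0 := by
  have hH := ls_Hm_symm s c
  have hq : (0 : ℝ) ≤ q := Nat.cast_nonneg _
  let β : Fin (q + 1) × Fin 2 → Option J := fun x => if h : x.1 ∈ J then some ⟨x.1, h⟩ else none
  let Δ : Option J → Matrix V V ℝ := fun k => k.elim (-∑ j ∈ Jᶜ, eM (α j).1 (c.1 (α j)).1)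
    fun j => -eM (α j).1 (c.1 (α j)).1
  let S : Option J → Set V := fun k => k.elim (⋃ j ∉ J, ends c.1 (α j)) fun j => ends c.1 (α j)
  have hΔ : ∀ k, Supp (S k) (Δ k) := by
    rintro (_ | j)
    · exact (Supp.sum fun j hj => Supp.eM (Set.mem_biUnion (Finset.mem_compl.1 hj) (by simp [ends]))
        (Set.mem_biUnion (Finset.mem_compl.1 hj) (by simp [ends]))).neg
    · exact (Supp.eM (by simp [S, ends]) (by simp [S, ends])).neg
  have hK : (Fintype.card (Option J) : ℝ) ≤ q + 2 := by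
    have := J.card_le_univ
    simp only [Fintype.card_option, Fintype.card_coe, Fintype.card_fin] at this ⊢
    exact_mod_cast Nat.succ_le_succ this
  have hK' : (q + 2) * ε ≤ 1 / 2 := by
    rw [le_div_iff₀ (by positivity)] at h1
    linarith
  have h2 := ls_loc hH hz hΔ h0 ((mul_le_mul_of_nonneg_right hK h0).trans hK') (by
    rintro (_ | k) (_ | j) hkj
    · exact (hkj rfl).elim
    · exact (hS j j.2).2.1
    · exact (hS k k.2).2.1.symm (gr_symm hH z)
    · exact (hS j j.2).2.2 k k.2 fun h => hkj (congrArg some (Subtype.ext h))) (lsP c α) β fun ⟨j, t⟩ => by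
    have : lsP c α (j, t) ∈ ends c.1 (α j) := by fin_cases t <;> simp [lsP, ends]
    by_cases hj : j ∈ J
    · simp only [β, dif_pos hj]
      exact this
    · simp only [β, dif_neg hj]
      exact Set.mem_iUnion₂.2 ⟨j, hj, this⟩
  have e1 : Hm s c + ∑ k, Δ k = Hm s c - ∑ j, eM (α j).1 (c.1 (α j)).1 := by
    rw [Fintype.sum_option, ← Finset.sum_compl_add_sum J, ← Finset.sum_coe_sort J, sub_eq_add_neg, neg_add,
      ← Finset.sum_neg_distrib (s := Finset.univ)]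
    rfl
  let M : J → Matrix (Fin 2) (Fin 2) ℂ := fun j =>
    (Gc s z c (α j)).submatrix ![(α j).1, (c.1 (α j)).1] ![(α j).1, (c.1 (α j)).1]
  have sM : ∀ j, Sieg (M j) := fun j => (gr_sieg (ls_Hc_symm ..) hz).sub _
  have sD : ∀ j, Sieg (diagonal fun i => M j i i) := fun j => by
    convert bdF_sieg (id : Fin 2 → Fin 2) fun _ => sM j
    ext a b
    rw [bdF_apply, diagonal_apply]
    split_ifs <;> simp_all
  have s0 := (gr_sieg (hH.add (hΔ none).1) hz).sub (lsP c α)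
  set A₀ := (Gr (Hm s c + Δ none) z).submatrix (lsP c α) (lsP c α)
  have e2 : (bdF β fun k => (Gr (Hm s c + Δ k) z).submatrix (lsP c α) (lsP c α)) =
      bdF β fun k => k.elim A₀ fun j => (M j).submatrix Prod.snd Prod.snd := by
    ext ⟨j, t⟩ ⟨k, u⟩
    rw [bdF_apply, bdF_apply]
    split_ifs with h
    · by_cases hj : j ∈ J
      · obtain rfl : j = k := by
          by_cases hk : k ∈ J <;> simp_all [β]
        simp only [β, dif_pos hj, Δ, Option.elim, ← sub_eq_add_neg]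
        rfl
      · simp only [β, dif_neg hj]
        rfl
    · rfl
  have sA : ∀ k : Option J, Sieg (k.elim A₀ fun j => (M j).submatrix Prod.snd Prod.snd) := by
    rintro (_ | j)
    exacts [s0, (sM j).sub _]
  have sB : ∀ k : Option J, Sieg (k.elim A₀ fun j => (diagonal fun i => M j i i).submatrix Prod.snd Prod.snd) := by
    rintro (_ | j)
    exacts [s0, (sD j).sub _]
  have h3 := bdF_close (e := 4 * e) β sA sB (by
    rintro (_ | j)
    exacts [s0.refl _, (ls_close_diag (sM j) he (by linarith) ((ls_dec ..).1 (hS j j.2).1)).sub _])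
  rw [e1, e2] at h2
  have s1 := (gr_sieg (e1 ▸ hH.add (Supp.sum (S := Set.univ) (s := Finset.univ) fun k _ =>
    ⟨(hΔ k).1, fun _ _ _ => trivial⟩).1) hz).sub (lsP c α)
  refine ⟨_, bdF_sieg β sB, (h2.trans h3 s1 (bdF_sieg β sA) (bdF_sieg β sB) (by positivity) (by positivity)).mono s1
    (bdF_sieg β sB) (by positivity) ?_, fun j hj ⟨k, t⟩ => ?_⟩
  · have := mul_le_mul_of_nonneg_right hK h0
    have := mul_nonneg (Nat.cast_nonneg (α := ℝ) (Fintype.card (Option J))) h0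
    nlinarith [mul_nonneg hq he, mul_nonneg hq h0]
  · rw [bdF_apply, ls_Yc']
    by_cases hk : k = j
    · subst hk
      fin_cases t <;> simp [β, hj, M]
    · rw [if_neg, if_neg (by simp [hk])]
      by_cases hk' : k ∈ J <;> simp [β, hj, hk', Ne.symm hk]

theorem ls_gl (hK : StKit) (c : Cfg V q) {α : Fin (q + 1) → HE V q} (w : Fin 2 → II) {J : Finset (Fin (q + 1))}
    (hz : 0 < z.im) (h0 : 0 ≤ ε) (h1 : ε ≤ 1 / (2 * (q + 2))) (he : 0 ≤ e) (he' : e ≤ 1 / 10) (hα : Disj c.1 α)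
    (hS : Sep s z c α J ε e) (Cs : Finset (Fin (q + 1))) :
    ∃ (B : Matrix (SI q) (SI q) ℂ) (r : ℂ), Sieg B ∧
      Close ((4 * q + 8) * (ε + e))
        ((Gr (Hm s (glueC c α w) - ∑ j ∈ Csᶜ, eM (Sum.inr 0) (Sum.inl (c.1 (α j)).1)) z).submatrix
          (sp (glue c.1 α) (oH V 0)) (sp (glue c.1 α) (oH V 0))) B ∧ 0 ≤ r.im ∧ (Cs ⊆ J → r = 0) ∧
      B none none = -(z - s * (w 0 : ℝ) + r + ∑ j ∈ J ∩ Cs, Yc s z c (c.1 (α j)))⁻¹ ∧
      ∀ j ∈ J ∩ Cs, ∀ i, B (some j) i =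
        (if i = some j then Yc s z c (c.1 (α j)) else 0) - Yc s z c (c.1 (α j)) * B none i := by
  obtain ⟨B, sB, hc, hB⟩ := ls_cut c hz h0 h1 he he' hS
  have hH : (Hm s c - ∑ j, eM (α j).1 (c.1 (α j)).1).IsSymm :=
    (ls_Hm_symm s c).sub (Supp.sum (S := Set.univ) fun _ _ => Supp.eM trivial trivial).1
  have hH₀ := hH.fromBlocks (B := 0) (C := 0) (by simp) (isSymm_diagonal fun o => s * (w o : ℝ))
  let p : (Fin (q + 1) × Fin 2) ⊕ Fin 2 → V ⊕ Fin 2 := Sum.map (lsP c α) id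
  have sJ : ∀ (t : Finset (Fin (q + 1))) (o u : Fin 2),
      (∑ j ∈ t, eM (Sum.inr o : (Fin (q + 1) × Fin 2) ⊕ Fin 2) (Sum.inl (j, u))).IsSymm := fun t o u =>
    (Supp.sum (S := Set.univ) fun _ _ => Supp.eM trivial trivial).1
  have r1 := gr_rel hH₀ hz p (sJ Finset.univ 1 0)
  have r2 := gr_rel (hH₀.add (pm_symm p (sJ Finset.univ 1 0))) hz p (sJ Cs 0 1)
  have sD := (gr_sieg hH₀ hz).sub Sum.inr
  rw [gr_blocks hH hz] at sD
  have h2 := hc.blocks ((gr_sieg hH hz).sub _) sB sD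
  obtain ⟨B₂, r, s2, c2, hr, hr', b0, b1⟩ := ls_attach (J := J) (W := z - s * (w 0 : ℝ))
    (Y := fun j => Yc s z c (c.1 (α j))) (fun j k h => by simpa using h) (by simp) (by simpa using hz) r1 r2
    (by
      convert h2 using 1
      rw [gr_blocks hH hz]
      ext (a | a) (b | b) <;> rfl) (sB.blocks sD)
    (fun i => by simp [Matrix.sum_apply, eM]) (fun j i => by simp [Matrix.sum_apply, eM])
    (by
      rintro (i | i)
      · simp
      · fin_cases i <;> simp [← inv_neg])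
    (by
      rintro j hj (i | i)
      · simp [hB j hj]
      · simp)
  let ρ : SI q → (Fin (q + 1) × Fin 2) ⊕ Fin 2 := fun x => x.elim (.inr 0) fun j => .inl (j, 1)
  refine ⟨B₂.submatrix ρ ρ, r, s2.sub ρ, ?_, hr, hr', b0, fun j hj i => (b1 j hj _).trans ?_⟩
  · have e1 : sp (glue c.1 α) (oH V 0) = p ∘ ρ := by
      ext (_ | j)
      · rfl
      · simp only [sp, rot, oH, zero_add, (hK.glue_spec q V c.1 α hα).1]
        rfl
    rw [e1, ← submatrix_submatrix, ls_glue hK c w hα, ← Finset.sum_add_sum_compl Cs fun j => eM (Sum.inr 0) _,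
      ← add_assoc, add_sub_cancel_right]
    simp only [Matrix.mul_sum, Matrix.sum_mul, pm_eM] at c2
    exact c2.sub ρ
  · rcases i with _ | i <;> simp [ρ]

theorem stGL (hK : StKit) : StGL := by
  refine fun q => ⟨4 * q + 8, 1 / (2 * (q + 2)), by positivity, fun s z V _ _ c α w J ε e hz h0 h1 he he' hα hS => ?_⟩
  have sG := fun Cs : Finset (Fin (q + 1)) => (gr_sieg ((ls_Hm_symm s (glueC c α w)).sub
    (Supp.sum (s := Csᶜ) fun j _ => Supp.eM (Set.mem_univ (Sum.inr 0)) (Set.mem_univ (Sum.inl (c.1 (α j)).1))).1)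
      hz).sub (sp (glue c.1 α) (oH V 0))
  refine ⟨fun i => ?_, ?_⟩
  · obtain ⟨B, r, sB, hc, hr, hr', b0, -⟩ := ls_gl hK c w hz h0 h1 he he' hα hS {i}ᶜ
    refine ⟨r, hr, fun h => hr' fun j hj => h j (by simpa using hj), ?_⟩
    have := hc.gam (sG _) sB none
    rw [b0, compl_compl, Finset.sum_singleton, show J ∩ {i}ᶜ = J.erase i by ext; simp [and_comm]] at this
    rw [Yc, ls_Gc, show (glueC c α w).1 (oH V i) = _ from (hK.glue_spec q V c.1 α hα).1 i]
    exact this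
  · obtain ⟨B, r, sB, hc, hr, hr', b0, b1⟩ := ls_gl hK c w hz h0 h1 he he' hα hS Finset.univ
    have := hc.gam (sG _) sB none
    simp only [Finset.compl_univ, Finset.sum_empty, sub_zero, Finset.inter_univ] at this hc b0 b1
    refine ⟨⟨r, hr, b0 ▸ this⟩, ?_⟩
    rintro rfl
    rw [hr' le_rfl, add_zero] at b0
    have b2 : ∀ j, B (some j) none = -(Yc s z c (c.1 (α j)) * B none none) := fun j => by
      simpa using b1 j (Finset.mem_univ _) none
    convert hc using 1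
    ext (_ | i) (_ | j)
    · exact b0.symm
    · rw [sB.1.apply, b2, b0]
      rfl
    · rw [b2, b0]
      rfl
    · rw [b1 i (Finset.mem_univ _), sB.1.apply (some j), b2, b0]
      simp only [GamS, Psi, Option.some.injEq, eq_comm (a := j)]
      ring

end Crest.Agent.R166
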