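import Crest.Agent.R166.LS.Res

/-! Row 166, block LS (owner helper10): local perturbations of decoupled sets. -/

set_option autoImplicit false
set_option linter.unusedSectionVars false

open Complex Matrix
open scoped BigOperators

noncomputable section

namespace Crest.Agent.R166

variable {V ι κ : Type} [Fintype V] [DecidableEq V] [Fintype ι] [DecidableEq ι] [Fintype κ] [DecidableEq κ]
  {H : Matrix V V ℝ} {z : ℂ} {ε T e : ℝ}

/-- symmetric and supported in `S × S` -/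
def Supp (S : Set V) (Δ : Matrix V V ℝ) : Prop := Δ.IsSymm ∧ ∀ u v, Δ u v ≠ 0 → u ∈ S

/-- the adjacency matrix of an edge -/
def eM (u v : V) : Matrix V V ℝ := single u v 1 + single v u 1

theorem Supp.zero (S : Set V) : Supp S (0 : Matrix V V ℝ) := ⟨isSymm_zero, fun _ _ h => (h rfl).elim⟩

theorem Supp.add {S : Set V} {Δ Δ' : Matrix V V ℝ} (h : Supp S Δ) (h' : Supp S Δ') : Supp S (Δ + Δ') := by
  refine ⟨h.1.add h'.1, fun u v huv => by_contra fun hu => huv ?_⟩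
  rw [Matrix.add_apply, by_contra (p := Δ u v = 0) fun hh => hu (h.2 u v hh),
    by_contra (p := Δ' u v = 0) fun hh => hu (h'.2 u v hh), add_zero]

theorem Supp.neg {S : Set V} {Δ : Matrix V V ℝ} (h : Supp S Δ) : Supp S (-Δ) := by
  exact ⟨h.1.neg, fun u v huv => h.2 u v (neg_ne_zero.1 huv)⟩

theorem Supp.sum {S : Set V} {α : Type} {s : Finset α} {Δ : α → Matrix V V ℝ} (h : ∀ a ∈ s, Supp S (Δ a)) :
    Supp S (∑ a ∈ s, Δ a) := by
  exact Finset.sum_induction Δ (Supp S) (fun _ _ => Supp.add) (Supp.zero S) h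

theorem Supp.eM {S : Set V} {u v : V} (hu : u ∈ S) (hv : v ∈ S) : Supp S (eM u v) := by
  refine ⟨?_, fun a b hab => by_contra fun ha => hab ?_⟩
  · rw [Matrix.IsSymm, R166.eM, transpose_add, transpose_single, transpose_single, add_comm]
  · rw [R166.eM, Matrix.add_apply, single_apply_of_row_ne (fun h : u = a => ha (h ▸ hu)),
      single_apply_of_row_ne (fun h : v = a => ha (h ▸ hv)), add_zero]

theorem eM_symm (u v : V) : (eM u v).IsSymm := (Supp.eM (Set.mem_univ u) (Set.mem_univ v)).1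

theorem eM_comm (u v : V) : eM u v = eM v u := add_comm _ _

theorem pm_eM (p : ι → V) (i j : ι) : pm ℝ p * eM i j * (pm ℝ p)ᵀ = eM (p i) (p j) := by
  have : ∀ i j, pm ℝ p * single i j (1 : ℝ) * (pm ℝ p)ᵀ = single (p i) (p j) 1 := fun i j => by
    ext u v
    rw [mul_apply, Finset.sum_eq_single j (fun k _ hk => by simp [hk]) (by simp)]
    simp [pm, single_apply, ite_and]
    split_ifs <;> rfl
  rw [eM, Matrix.mul_add, Matrix.add_mul, this, this, eM]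

theorem ls_weights (p : ι → V) (T : Set ι) : ∃ c : ι → ℝ, (∀ i, i ∉ T → c i = 0) ∧
    ∀ u ∈ p '' T, (∑ i, if p i = u then c i else 0) = 1 := by
  classical
  refine ⟨fun i => if i ∈ T then ((Finset.univ.filter fun j => j ∈ T ∧ p j = p i).card : ℝ)⁻¹ else 0,
    fun i hi => if_neg hi, ?_⟩
  rintro _ ⟨i, hi, rfl⟩
  rw [Finset.sum_congr rfl (g := fun j => if j ∈ T ∧ p j = p i then
    ((Finset.univ.filter fun j => j ∈ T ∧ p j = p i).card : ℝ)⁻¹ else 0) fun j _ => by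
      by_cases h : p j = p i <;> simp [h], ← Finset.sum_filter, Finset.sum_const, nsmul_eq_mul]
  exact mul_inv_cancel₀ (Nat.cast_ne_zero.2 (Finset.card_ne_zero.2 ⟨i, by simp [hi]⟩))

theorem ls_pull (p : ι → V) {y : V → ℂ} (hy : ∀ v, v ∉ Set.range p → y v = 0) : ∃ y', y = pm ℂ p *ᵥ y' := by
  obtain ⟨c, -, hc⟩ := ls_weights p Set.univ
  refine ⟨fun i => c i * y (p i), funext fun v => ?_⟩
  have : (pm ℂ p *ᵥ fun i => c i * y (p i)) v = (∑ i, if p i = v then c i else 0 : ℝ) * y v := by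
    simp only [pm, mulVec, dotProduct, of_apply, ofReal_sum, Finset.sum_mul]
    refine Finset.sum_congr rfl fun i _ => ?_
    split_ifs with h <;> simp [h]
  rw [this]
  by_cases hv : v ∈ Set.range p
  · rw [hc v (by rwa [Set.image_univ]), ofReal_one, one_mul]
  · rw [hy v hv, mul_zero]

theorem Supp.pull (p : ι → V) (T : Set ι) {Δ : Matrix V V ℝ} (h : Supp (p '' T) Δ) :
    ∃ J : Matrix ι ι ℝ, Supp T J ∧ pm ℝ p * J * (pm ℝ p)ᵀ = Δ := by
  obtain ⟨c, h0, hc⟩ := ls_weights p T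
  refine ⟨of fun i j => c i * Δ (p i) (p j) * c j, ⟨?_, fun i j hij => by_contra fun hi => hij (by simp [h0 i hi])⟩, ?_⟩
  · ext i j
    simp only [transpose_apply, of_apply, h.1.apply (p i)]
    ring
  · ext u v
    have : (pm ℝ p * (of fun i j => c i * Δ (p i) (p j) * c j) * (pm ℝ p)ᵀ) u v =
        (∑ i, if p i = u then c i else 0) * Δ u v * ∑ i, if p i = v then c i else 0 := by
      simp only [pm, mul_apply, transpose_apply, of_apply, Finset.sum_mul, Finset.mul_sum]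
      refine Finset.sum_congr rfl fun j _ => Finset.sum_congr rfl fun i _ => ?_
      split_ifs with h h' <;> simp [*]
    rw [this]
    by_cases huv : Δ u v = 0
    · rw [huv, mul_zero, zero_mul]
    · rw [hc u (h.2 u v huv), hc v (h.2 v u (by rwa [h.1.apply])), one_mul, mul_one]

theorem Dcp.sub {G : Matrix V V ℂ} {S S' : Set V} (h : Dcp G ε S S') (p : ι → V) :
    Dcp (G.submatrix p p) ε (p ⁻¹' S) (p ⁻¹' S') := by
  have h0 : ∀ (S : Set V) (x : ι → ℂ), (∀ i, i ∉ p ⁻¹' S → x i = 0) → ∀ v, v ∉ S → (pm ℂ p *ᵥ x) v = 0 := by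
    intro S x hx v hv
    refine Finset.sum_eq_zero fun i _ => ?_
    by_cases hi : p i = v
    · exact mul_eq_zero_of_right _ (hx i (by rwa [Set.mem_preimage, hi]))
    · exact mul_eq_zero_of_left (if_neg hi) _
  intro x y hx hy
  rw [← pm_cmp, ls_cmp, (pm_re p).imq_cmp, (pm_re p).imq_cmp]
  exact h _ _ (h0 _ x hx) (h0 _ y hy)

/-- LOCALITY.  First for the probes `{x : κ × V // x.2 ∈ S x.1}` (`bdF_dcp`, `Supp.pull`, `gr_rel`, `bdF_rel`,
`Rel.close`), then `Close.sub`. -/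
theorem ls_loc (hH : H.IsSymm) (hz : 0 < z.im) {S : κ → Set V} {Δ : κ → Matrix V V ℝ} (hΔ : ∀ k, Supp (S k) (Δ k))
    (h0 : 0 ≤ ε) (hK : Fintype.card κ * ε ≤ 1 / 2) (hD : ∀ k l, k ≠ l → Dcp (Gr H z) ε (S k) (S l))
    (p : ι → V) (β : ι → κ) (hp : ∀ i, p i ∈ S (β i)) :
    Close (2 * Fintype.card κ * ε) ((Gr (H + ∑ k, Δ k) z).submatrix p p)
      (bdF β fun k => (Gr (H + Δ k) z).submatrix p p) := by
  classical
  let p₀ : {x : κ × V // x.2 ∈ S x.1} → V := fun x => x.1.2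
  let β₀ : {x : κ × V // x.2 ∈ S x.1} → κ := fun x => x.1.1
  have h1 : ∀ k, p₀ '' {x | β₀ x = k} = S k := fun k => by
    ext v
    exact ⟨fun ⟨x, hx, hv⟩ => hv ▸ (show β₀ x = k from hx) ▸ x.2, fun hv => ⟨⟨(k, v), hv⟩, rfl, rfl⟩⟩
  choose J hJ hJ' using fun k => Supp.pull p₀ {x | β₀ x = k} ((h1 k).symm ▸ hΔ k)
  have h2 := bdF_dcp β₀ ((gr_sieg hH hz).sub p₀) h0 hK fun k l hkl => ((hD k l hkl).sub p₀).mono
    (fun x hx => (show β₀ x = k from hx) ▸ x.2) fun x hx => (show β₀ x = l from hx) ▸ x.2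
  have h3 := gr_rel hH hz p₀ (Supp.sum (S := Set.univ) (s := Finset.univ) fun k _ => ⟨(hJ k).1, fun _ _ _ => trivial⟩).1
  have h4 := bdF_rel β₀ (fun k => gr_rel hH hz p₀ (hJ k).1) fun k i j hij =>
    ⟨(hJ k).2 i j (ofReal_ne_zero.1 hij), (hJ k).2 j i ((hJ k).1.apply j i ▸ ofReal_ne_zero.1 hij)⟩
  have e1 : cx (∑ k, J k) = ∑ k, cx (J k) := by
    ext i j
    simp [Matrix.sum_apply]
  simp only [e1, Matrix.mul_sum, Matrix.sum_mul, hJ'] at h3 h4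
  convert (h3.close h4 h2).sub fun i => ⟨(β i, p i), hp i⟩ using 1
  · rfl
  ext i j
  rw [submatrix_apply, bdF_apply, bdF_apply]
  rfl

theorem ls_two (hH : H.IsSymm) (hz : 0 < z.im) {S S' : Set V} {Δ Δ' : Matrix V V ℝ} (hΔ : Supp S Δ)
    (hΔ' : Supp S' Δ') (h0 : 0 ≤ ε) (h1 : ε ≤ 1 / 4) (hD : Dcp (Gr H z) ε S S') :
    (∀ p : Fin 2 → V, (∀ i, p i ∈ S') →
      Close (4 * ε) ((Gr (H + Δ + Δ') z).submatrix p p) ((Gr (H + Δ') z).submatrix p p)) ∧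
    ∀ u ∈ S, ∀ v ∈ S', ‖Gr (H + Δ + Δ') z u v‖ ^ 2 ≤
      (8 * ε) ^ 2 * ((Gr (H + Δ + Δ') z u u).im * (Gr (H + Δ + Δ') z v v).im) := by
  have h2 := fun (p : Fin 2 → V) (β : Fin 2 → Fin 2) => ls_loc hH hz (S := ![S, S']) (Δ := ![Δ, Δ'])
    (Fin.forall_fin_two.2 ⟨hΔ, hΔ'⟩) h0 (by simp; linarith) (Fin.forall_fin_two.2
      ⟨Fin.forall_fin_two.2 ⟨fun h => (h rfl).elim, fun _ => hD⟩,
        Fin.forall_fin_two.2 ⟨fun _ => hD.symm (gr_symm hH z), fun h => (h rfl).elim⟩⟩) p β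
  simp only [Fin.sum_univ_two, ← add_assoc, Fintype.card_fin, cons_val_zero, cons_val_one,
    show (2 * (2 : ℕ) : ℝ) = 4 by norm_num] at h2
  refine ⟨fun p hp => ?_, fun u hu v hv => ?_⟩
  · convert h2 p (fun _ => 1) hp using 1
    ext i j
    rw [bdF_apply, if_pos rfl]
    rfl
  · have h3 := h2 ![u, v] id (Fin.forall_fin_two.2 ⟨hu, hv⟩)
    have s1 := (gr_sieg ((hH.add hΔ.1).add hΔ'.1) hz).sub ![u, v]
    have s2 := bdF_sieg (id : Fin 2 → Fin 2) (A := fun k => (Gr (H + ![Δ, Δ'] k) z).submatrix ![u, v] ![u, v])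
      (Fin.forall_fin_two.2 ⟨(gr_sieg (hH.add hΔ.1) hz).sub _, (gr_sieg (hH.add hΔ'.1) hz).sub _⟩)
    have h4 := h3.entry 0 1
    have h5 := (h3.symm s1 s2).diag s2 s1 (by positivity) 0
    have h6 := s1.diag 0
    have h7 := s1.diag 1
    rw [bdF_apply id _ 0 1, if_neg (by simp), sub_zero] at h4
    refine h4.trans ?_
    have : (1 + 4 * ε) ^ 2 ≤ 4 := by nlinarith
    calc _ ≤ (4 * ε) ^ 2 * (4 * ((Gr (H + Δ + Δ') z).submatrix ![u, v] ![u, v] 0 0).im *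
          ((Gr (H + Δ + Δ') z).submatrix ![u, v] ![u, v] 1 1).im) := by
          gcongr
          exact h5.trans (by gcongr)
      _ = _ := by
        simp only [submatrix_apply, cons_val_zero, cons_val_one]
        ring

/-- `good` for a matrix -/
def goodM (T e : ℝ) (G : Matrix V V ℂ) (u v : V) : Prop :=
  ‖G u v‖ ^ 2 ≤ e ^ 2 * ((G u u).im * (G v v).im) ∧ hyp (G u u) ≤ T ∧ hyp (G v v) ≤ T

theorem goodM.mono {G : Matrix V V ℂ} {u v : V} (h : goodM T e G u v) (hG : Sieg G) {e' : ℝ} (he : 0 ≤ e)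
    (he' : e ≤ e') : goodM T e' G u v := by
  refine ⟨h.1.trans ?_, h.2⟩
  have := mul_nonneg (hG.diag u) (hG.diag v)
  gcongr

theorem goodM.of_close {V' : Type} [Fintype V'] [DecidableEq V'] {H' : Matrix V' V' ℝ} (hH : H.IsSymm)
    (hH' : H'.IsSymm) (hz : 0 < z.im) {u v : V} {u' v' : V'} (h : goodM T e (Gr H z) u v) (he : 0 ≤ e)
    (he' : e ≤ 1 / 10) (h0 : 0 ≤ ε) (h1 : ε ≤ 1 / 10)
    (hc : Close (ε / 3) ((Gr H' z).submatrix ![u', v'] ![u', v']) ((Gr H z).submatrix ![u, v] ![u, v])) :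
    goodM ((1 + ε) * T) (e + ε) (Gr H' z) u' v' := by
  have s1 := (gr_sieg hH' hz).sub ![u', v']
  have s2 := (gr_sieg hH hz).sub ![u, v]
  have h2 : ∀ {a a'}, gam (Gr H' z a' a') (Gr H z a a) ≤ (ε / 3) ^ 2 → hyp (Gr H z a a) ≤ T →
      hyp (Gr H' z a' a') ≤ (1 + ε) * T := fun {a a'} h2 h3 => by
    have := ls_two_le_hyp (gr_pos hH hz a).1
    refine (ls_hyp (gr_pos hH' hz a').1 (gr_pos hH hz a).1 (by positivity) h2).trans ?_
    gcongr
    nlinarith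
  refine ⟨(hc.dec s1 s2 (by positivity) he (i := 0) (j := 1) h.1).trans ?_, h2 (hc.gam s1 s2 0) h.2.1,
    h2 (hc.gam s1 s2 1) h.2.2⟩
  have := mul_nonneg (s1.diag 0) (s1.diag 1)
  refine mul_le_mul_of_nonneg_right (pow_le_pow_left₀ (by positivity) ?_ 2) this
  nlinarith [mul_nonneg he h0, mul_nonneg h0 h0]

theorem ls_three (a b c : ℂ) : ‖a + b + c‖ ^ 2 ≤ 3 * (‖a‖ ^ 2 + ‖b‖ ^ 2 + ‖c‖ ^ 2) := by
  have := pow_le_pow_left₀ (norm_nonneg _) (norm_add₃_le (a := a) (b := b) (c := c)) 2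
  nlinarith [sq_nonneg (‖a‖ - ‖b‖), sq_nonneg (‖a‖ - ‖c‖), sq_nonneg (‖b‖ - ‖c‖)]

theorem ls_of_hyp {Y : ℂ} (h0 : 0 < Y.im) (h : hyp Y ≤ T) : 1 + ‖Y‖ ^ 2 ≤ T * Y.im ∧ Y.im ≤ T := by
  rw [hyp, div_le_iff₀ h0] at h
  refine ⟨h, le_of_mul_le_mul_right ?_ h0⟩
  nlinarith [(le_abs_self _).trans (abs_im_le_norm Y)]

/-- `A = Gr (H - eM u v)` on the probes `(u, v)`, `y = (1 + J A) a`, `|y|² ≤ C T (Im A₀₀ |a₀|² + Im A₁₁ |a₁|²)` -/
theorem goodM.lower (hH : H.IsSymm) (hz : 0 < z.im) {u v : V} (h : goodM T (1 / 10) (Gr (H - eM u v) z) u v)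
    (y : Fin 2 → ℂ) : nq y ≤ 20 * T * imq ((Gr H z).submatrix ![u, v] ![u, v]) y := by
  have h' := hH.sub (eM_symm u v)
  have hR := gr_rel h' hz ![u, v] (eM_symm 0 1)
  rw [pm_eM, cons_val_zero, cons_val_one, cons_val_zero, sub_add_cancel] at hR
  have sA := (gr_sieg h' hz).sub ![u, v]
  obtain ⟨p0, q0⟩ := ls_of_hyp (gr_pos h' hz u).1 h.2.1
  obtain ⟨p1, q1⟩ := ls_of_hyp (gr_pos h' hz v).1 h.2.2
  have hg : _ ≤ _ := h.1
  have hc := ls_close_diag sA (by norm_num) (by norm_num) hg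
  have r0 := (gr_pos h' hz u).1
  have r1 := (gr_pos h' hz v).1
  set A := (Gr (H - eM u v) z).submatrix ![u, v] ![u, v]
  change 1 + ‖A 0 0‖ ^ 2 ≤ T * (A 0 0).im at p0
  change 1 + ‖A 1 1‖ ^ 2 ≤ T * (A 1 1).im at p1
  change (A 0 0).im ≤ T at q0
  change (A 1 1).im ≤ T at q1
  change 0 < (A 0 0).im at r0
  change 0 < (A 1 1).im at r1
  change ‖A 0 1‖ ^ 2 ≤ _ * ((A 0 0).im * (A 1 1).im) at hg
  rw [hR.imq_eq]
  have hy := congrArg (· *ᵥ y) hR.inv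
  simp only [← mulVec_mulVec, one_mulVec] at hy
  generalize (1 - cx (eM 0 1) * (Gr H z).submatrix ![u, v] ![u, v]) *ᵥ y = a at hy ⊢
  have hD : ∀ a, imq (diagonal fun i => A i i) a = ‖a 0‖ ^ 2 * (A 0 0).im + ‖a 1‖ ^ 2 * (A 1 1).im := fun a => by
    simp only [imq, dotProduct, mulVec_diagonal, Fin.sum_univ_two, Pi.star_apply, Complex.sq_norm, normSq_apply,
      add_im, mul_im, mul_re, star_def, conj_re, conj_im]
    ring
  have sD : Sieg (diagonal fun i => A i i) := ⟨isSymm_diagonal _, fun a => by rw [hD]; positivity⟩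
  have h1 := (hc.symm sA sD).ratio sD sA (by norm_num) a
  rw [hD] at h1
  have e0 : y 0 = a 0 + A 0 1 * a 0 + A 1 1 * a 1 := by
    simp [← hy, add_mulVec, eM, mul_apply, single_apply, sA.1.apply 0 1, vecHead]
    ring
  have e1 : y 1 = a 1 + A 0 0 * a 0 + A 0 1 * a 1 := by
    simp [← hy, add_mulVec, eM, mul_apply, single_apply, vecHead, vecTail]
    ring
  have t0 := ls_three (a 0) (A 0 1 * a 0) (A 1 1 * a 1)
  have t1 := ls_three (a 1) (A 0 0 * a 0) (A 0 1 * a 1)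
  simp only [norm_mul, mul_pow] at t0 t1
  have g0 : ‖A 0 1‖ ^ 2 ≤ T * (A 0 0).im := by nlinarith [mul_pos r0 r1]
  have g1 : ‖A 0 1‖ ^ 2 ≤ T * (A 1 1).im := by nlinarith [mul_pos r0 r1]
  rw [nq, Fin.sum_univ_two, e0, e1]
  nlinarith [mul_le_mul_of_nonneg_left p0 (sq_nonneg ‖a 0‖), mul_le_mul_of_nonneg_left p1 (sq_nonneg ‖a 1‖),
    mul_le_mul_of_nonneg_left g0 (sq_nonneg ‖a 0‖), mul_le_mul_of_nonneg_left g1 (sq_nonneg ‖a 1‖),
    mul_le_mul_of_nonneg_left h1 (r0.le.trans q0), mul_nonneg (r0.le.trans q0) (sA.2 a)]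

theorem ls_ward (hH : H.IsSymm) (hz : 0 < z.im) (S : Finset V) : ∃ φ : V → ℝ, (∀ v, 0 ≤ φ v) ∧
    ∑ v, φ v ≤ S.card / z.im ∧ ∀ (u v : V) (T ε : ℝ), goodM T (1 / 10) (Gr (H - eM u v) z) u v →
      20 * T * (φ u + φ v) ≤ ε ^ 2 → Dcp (Gr H z) ε S {u, v} := by
  obtain ⟨φ, h0, h1, h2⟩ := gr_phi hH hz S
  refine ⟨φ, h0, h1, fun u v T ε hg hT x y hx hy => ?_⟩
  obtain ⟨y, rfl⟩ := ls_pull ![u, v] (y := y) (by simpa [Set.pair_comm] using hy)
  have h3 := hg.lower hH hz y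
  rw [← pm_cmp, (pm_re _).imq_cmp] at h3
  have h4 : nq ((Gr H z *ᵥ x) ∘ ![u, v]) ≤ (φ u + φ v) * imq (Gr H z) x := by
    rw [nq, Fin.sum_univ_two, add_mul]
    exact add_le_add (h2 x hx u) (h2 x hx v)
  have h5 : x ⬝ᵥ Gr H z *ᵥ pm ℂ ![u, v] *ᵥ y = ((Gr H z *ᵥ x) ∘ ![u, v]) ⬝ᵥ y := by
    rw [ls_comm (gr_symm hH z), dotProduct_comm, dotProduct_mulVec]
    congr 1
    ext i
    simp [pm, vecMul, dotProduct]
  have s1 := (gr_sieg hH hz).2 x
  have s2 := (gr_sieg hH hz).2 (pm ℂ ![u, v] *ᵥ y)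
  have := nq_nonneg y
  have := add_nonneg (h0 u) (h0 v)
  rw [h5]
  calc _ ≤ (φ u + φ v) * imq (Gr H z) x * (20 * T * imq (Gr H z) (pm ℂ ![u, v] *ᵥ y)) :=
        (nq_cs _ _).trans (by gcongr)
    _ = 20 * T * (φ u + φ v) * (imq (Gr H z) x * imq (Gr H z) (pm ℂ ![u, v] *ᵥ y)) := by ring
    _ ≤ _ := by gcongr

theorem ite_le_ite_of_imp {p p' : Prop} {_ : Decidable p} {_ : Decidable p'} (h : p → p') :
    (if p then (1 : ℝ) else 0) ≤ if p' then 1 else 0 := by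
  split_ifs <;> simp_all

open Classical in
/-- Markov's inequality -/
theorem ls_count (hH : H.IsSymm) (hz : 0 < z.im) (S : Finset V) (u v : ι → V) {d : ℝ}
    (hu : ∀ φ : V → ℝ, (∀ v, 0 ≤ φ v) → ∑ i, φ (u i) ≤ d * ∑ x, φ x)
    (hv : ∀ φ : V → ℝ, (∀ v, 0 ≤ φ v) → ∑ i, φ (v i) ≤ d * ∑ x, φ x) (hd : 0 ≤ d) (hT : 0 ≤ T) (hε : 0 < ε) :
    (∑ i, if goodM T (1 / 10) (Gr (H - eM (u i) (v i)) z) (u i) (v i) ∧ ¬ Dcp (Gr H z) ε S {u i, v i}
      then (1 : ℝ) else 0) ≤ d * (40 * S.card * T ^ 3 / (z.im * ε ^ 2)) := by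
  obtain ⟨φ, h0, h1, h2⟩ := ls_ward hH hz S
  calc _ ≤ ∑ i, 20 * T ^ 3 / ε ^ 2 * (φ (u i) + φ (v i)) := Finset.sum_le_sum fun i _ => by
        have := add_nonneg (h0 (u i)) (h0 (v i))
        split_ifs with h
        · have h3 := (not_le.1 (mt (h2 _ _ T ε h.1) h.2)).le
          have h4 := (ls_two_le_hyp (gr_pos (hH.sub (eM_symm _ _)) hz _).1).trans h.1.2.1
          rw [div_mul_eq_mul_div, le_div_iff₀ (by positivity), one_mul]
          refine h3.trans ?_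
          gcongr
          exact le_self_pow₀ (by linarith) three_ne_zero
        · positivity
    _ ≤ 20 * T ^ 3 / ε ^ 2 * (d * (S.card / z.im) + d * (S.card / z.im)) := by
      rw [← Finset.mul_sum, Finset.sum_add_distrib]
      gcongr
      · exact (hu φ h0).trans (by gcongr)
      · exact (hv φ h0).trans (by gcongr)
    _ = _ := by field_simp; ring

open Classical in
theorem ls_stab (hH : H.IsSymm) (hz : 0 < z.im) (S : Finset V) {H' : Matrix V V ℝ} (hΔ : Supp S (H' - H))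
    (u v : ι → V) {d : ℝ} (hu : ∀ φ : V → ℝ, (∀ v, 0 ≤ φ v) → ∑ i, φ (u i) ≤ d * ∑ x, φ x)
    (hv : ∀ φ : V → ℝ, (∀ v, 0 ≤ φ v) → ∑ i, φ (v i) ≤ d * ∑ x, φ x) (hd : 0 ≤ d) (hT : 0 ≤ T) (hε : 0 < ε)
    (h1 : ε ≤ 1) (he : 0 ≤ e) (he' : e ≤ 1 / 10) :
    (∑ i, if goodM T e (Gr (H - eM (u i) (v i)) z) (u i) (v i) ∧
      ¬ Close (ε / 3) ((Gr (H' - eM (u i) (v i)) z).submatrix ![u i, v i] ![u i, v i])
        ((Gr (H - eM (u i) (v i)) z).submatrix ![u i, v i] ![u i, v i])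
      then (1 : ℝ) else 0) ≤ d * (6000 * S.card * T ^ 3 / (z.im * ε ^ 2)) := by
  refine le_trans (Finset.sum_le_sum fun i _ => ?_) ((ls_count hH hz S u v hu hv hd hT (ε := ε / 12) (by positivity)).trans ?_)
  · refine ite_le_ite_of_imp ?_
    rintro ⟨h2, h3⟩
    refine ⟨h2.mono (gr_sieg (hH.sub (eM_symm _ _)) hz) he he', fun h4 => h3 ?_⟩
    have := (ls_two hH hz hΔ (Supp.eM (u := u i) (v := v i) (by simp) (by simp)).neg (by positivity) (by linarith) h4).1 ![u i, v i]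
      (Fin.forall_fin_two.2 ⟨by simp, by simp⟩)
    rwa [add_sub_cancel, ← sub_eq_add_neg, ← sub_eq_add_neg, show 4 * (ε / 12) = ε / 3 by ring] at this
  · rw [show 40 * S.card * T ^ 3 / (z.im * (ε / 12) ^ 2) = 5760 * S.card * T ^ 3 / (z.im * ε ^ 2) by field_simp; ring]
    gcongr
    norm_num

end Crest.Agent.R166
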