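import Crest.Agent.R166.LS.Sieg

/-! Row 166, block LS (owner helper10): perturbation `A ↦ A (1 + J A)⁻¹`, block diagonal matrices. -/

set_option autoImplicit false
set_option linter.unusedSectionVars false

open Complex Matrix
open scoped BigOperators

noncomputable section

namespace Crest.Agent.R166

variable {ι κ : Type} [Fintype ι] [Fintype κ] [DecidableEq ι] [DecidableEq κ]
  {A A' B B' J : Matrix ι ι ℂ} {e : ℝ}

/-- `A' = A (1 + J A)⁻¹` for a real symmetric `J` -/
structure Rel (J A A' : Matrix ι ι ℂ) : Prop where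
  re : IsRe J
  sJ : J.IsSymm
  sA : A.IsSymm
  sA' : A'.IsSymm
  eq : A' + A' * J * A = A

theorem Rel.eq' (h : Rel J A A') : A' + A * J * A' = A := by
  have := congrArg transpose h.eq
  rwa [transpose_add, transpose_mul, transpose_mul, h.sA.eq, h.sA'.eq, h.sJ.eq, ← Matrix.mul_assoc] at this

theorem Rel.inv (h : Rel J A A') : (1 + J * A) * (1 - J * A') = 1 := by
  have : J * A * (J * A') = J * A - J * A' := by
    conv_rhs => rw [← h.eq']
    noncomm_ring
  rw [add_mul, one_mul, mul_sub, mul_one, this]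
  abel

theorem Rel.mul (h : Rel J A A') : A * (1 - J * A') = A' := by
  rw [mul_sub, mul_one, sub_eq_iff_eq_add, ← Matrix.mul_assoc, h.eq']

theorem ls_imq_rel (hJ : IsRe J) (sJ : J.IsSymm) (A : Matrix ι ι ℂ) (u : ι → ℂ) :
    (star ((1 + J * A) *ᵥ u) ⬝ᵥ A *ᵥ u).im = imq A u := by
  have := hJ.imq_zero sJ (A *ᵥ u)
  rw [imq, ls_comm sJ, ← hJ.star_mulVec, dotProduct_comm] at this
  rw [add_mulVec, one_mulVec, star_add, add_dotProduct, add_im, ← mulVec_mulVec, this, add_zero, imq]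

/-- with `u = (1 - J A') y`: `y = u + J A u`, `A' y = A u` -/
theorem Rel.imq_eq (h : Rel J A A') (y : ι → ℂ) : imq A' y = imq A ((1 - J * A') *ᵥ y) := by
  rw [← ls_imq_rel h.re h.sJ A, mulVec_mulVec, mulVec_mulVec, h.inv, h.mul, one_mulVec, imq]

theorem Rel.sieg (h : Rel J A A') (hA : Sieg A) : Sieg A' := ⟨h.sA', fun y => h.imq_eq y ▸ hA.2 _⟩

/-- `A' - B' = (1 - J B')ᵀ (A - B) (1 - J A')` -/
theorem Rel.close (h : Rel J A A') (h' : Rel J B B') (hc : Close e A B) : Close e A' B' := by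
  intro x y
  have e1 : (1 - J * B')ᵀ * (A - B) * (1 - J * A') = A' - B' := by
    have e2 : (1 - B' * J) * B = B' := by
      rw [sub_mul, one_mul, sub_eq_iff_eq_add, h'.eq]
    rw [transpose_sub, transpose_one, transpose_mul, h'.sA'.eq, h.sJ.eq, Matrix.mul_assoc, sub_mul A, h.mul, mul_sub,
      ← Matrix.mul_assoc, e2]
    noncomm_ring
  rw [← e1, ls_cmp, h.imq_eq, h'.imq_eq]
  exact hc _ _

/-- if `(1 + J B) u = 0` then `imq B u = 0`, so `(A - B) u = 0`, `(1 + J A) u = 0`, `u = 0` -/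
theorem Rel.exists (h : Rel J A A') (hc : Close e A B) (hB : B.IsSymm) : ∃ B', Rel J B B' := by
  have hu : IsUnit (1 + J * B) := by
    rw [← mulVec_injective_iff_isUnit, ← coe_mulVecLin, injective_iff_map_eq_zero]
    intro u hu
    rw [mulVecLin_apply] at hu
    have h1 : imq B u = 0 := by
      rw [← ls_imq_rel h.re h.sJ, hu]
      simp
    have h2 : A *ᵥ u = B *ᵥ u := by
      ext i
      have := hc u (Pi.single i 1)
      rw [h1, ls_comm (h.sA.sub hB), single_dotProduct, one_mul, zero_mul, mul_zero, sub_mulVec] at this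
      exact sub_eq_zero.1 (norm_eq_zero.1 (pow_eq_zero_iff two_ne_zero |>.1 (le_antisymm this (sq_nonneg _))))
    have h3 : (1 + J * A) *ᵥ u = 0 := by
      rwa [add_mulVec, ← mulVec_mulVec, h2, mulVec_mulVec, ← add_mulVec]
    rw [← one_mulVec u, ← mul_eq_one_comm.1 h.inv, ← mulVec_mulVec, h3, mulVec_zero]
  obtain ⟨M, hM⟩ := hu.exists_right_inv
  have hM' := mul_eq_one_comm.1 hM
  have hT : Mᵀ * (1 + B * J) = 1 := by
    have := congrArg transpose hM
    rwa [transpose_mul, transpose_add, transpose_one, transpose_mul, hB.eq, h.sJ.eq] at this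
  have e1 : Mᵀ * B = B * M := by
    calc Mᵀ * B = Mᵀ * B * ((1 + J * B) * M) := by rw [hM, mul_one]
      _ = Mᵀ * (1 + B * J) * (B * M) := by noncomm_ring
      _ = _ := by rw [hT, one_mul]
  refine ⟨B * M, h.re, h.sJ, hB, by rw [Matrix.IsSymm, transpose_mul, hB.eq, e1], ?_⟩
  calc B * M + B * M * J * B = B * (M * (1 + J * B)) := by noncomm_ring
    _ = B := by rw [hM', mul_one]

/-- an isolated probe stays isolated -/
theorem Rel.row (h : Rel J A A') {c : ι} (hc : ∀ i, i ≠ c → A c i = 0) (i : ι) :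
    A' c i = A c i - A c c * (J * A') c i := by
  have := congrFun (congrFun h.eq' c) i
  rw [Matrix.add_apply, Matrix.mul_assoc, mul_apply, Finset.sum_eq_single c (fun j _ hj => by rw [hc j hj, zero_mul])
    (by simp)] at this
  exact eq_sub_of_add_eq this

theorem Rel.cmp {V : Type} [Fintype V] {G G' : Matrix V V ℂ} {P : Matrix V ι ℂ} (hJ : IsRe J) (sJ : J.IsSymm)
    (sG : G.IsSymm) (sG' : G'.IsSymm) (h : G' + G' * (P * J * Pᵀ) * G = G) :
    Rel J (Pᵀ * G * P) (Pᵀ * G' * P) := by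
  refine ⟨hJ, sJ, ?_, ?_, ?_⟩
  · rw [Matrix.IsSymm, transpose_mul, transpose_mul, transpose_transpose, sG.eq, Matrix.mul_assoc]
  · rw [Matrix.IsSymm, transpose_mul, transpose_mul, transpose_transpose, sG'.eq, Matrix.mul_assoc]
  · conv_rhs => rw [← h]
    simp only [Matrix.mul_add, Matrix.add_mul, Matrix.mul_assoc]

/-- projection on the block `k` -/
def prj (β : ι → κ) (k : κ) : Matrix ι ι ℂ := diagonal fun i => if β i = k then 1 else 0

/-- block diagonal matrix -/
def bdF (β : ι → κ) (A : κ → Matrix ι ι ℂ) : Matrix ι ι ℂ := ∑ k, (prj β k)ᵀ * A k * prj β k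

theorem prj_re (β : ι → κ) (k : κ) : IsRe (prj β k) := by
  intro i j
  simp only [prj, diagonal_apply]
  split_ifs <;> simp

theorem prj_mulVec (β : ι → κ) (k : κ) (x : ι → ℂ) (i : ι) : (prj β k *ᵥ x) i = if β i = k then x i else 0 := by
  simp [prj, mulVec_diagonal]

theorem bdF_apply (β : ι → κ) (A : κ → Matrix ι ι ℂ) (i j : ι) :
    bdF β A i j = if β i = β j then A (β i) i j else 0 := by
  simp only [bdF, prj, Matrix.sum_apply, diagonal_transpose, mul_diagonal, diagonal_mul, ite_mul, mul_ite, one_mul,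
    mul_one, zero_mul, mul_zero]
  rw [Finset.sum_eq_single (β i) (fun k _ hk => by simp [hk.symm]) (by simp)]
  simp [eq_comm]

theorem bdF_form (β : ι → κ) (A : κ → Matrix ι ι ℂ) (x y : ι → ℂ) :
    x ⬝ᵥ bdF β A *ᵥ y = ∑ k, (prj β k *ᵥ x) ⬝ᵥ A k *ᵥ (prj β k *ᵥ y) := by
  simp only [bdF, sum_mulVec, dotProduct_sum, ls_cmp]

theorem bdF_imq (β : ι → κ) (A : κ → Matrix ι ι ℂ) (x : ι → ℂ) :
    imq (bdF β A) x = ∑ k, imq (A k) (prj β k *ᵥ x) := by
  simp only [imq, bdF_form, im_sum, (prj_re β _).star_mulVec]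

theorem bdF_sieg (β : ι → κ) {A : κ → Matrix ι ι ℂ} (h : ∀ k, Sieg (A k)) : Sieg (bdF β A) := by
  refine ⟨?_, fun x => bdF_imq β A x ▸ Finset.sum_nonneg fun k _ => (h k).2 _⟩
  ext i j
  rw [transpose_apply, bdF_apply, bdF_apply]
  by_cases hij : β i = β j
  · rw [if_pos hij, if_pos hij.symm, hij, (h _).1.apply]
  · rw [if_neg hij, if_neg (Ne.symm hij)]

theorem ls_sum_sq {α : Type} (s : Finset α) {a : α → ℂ} {X Y : α → ℝ} (hX : ∀ k, 0 ≤ X k) (hY : ∀ k, 0 ≤ Y k)
    (h : ∀ k ∈ s, ‖a k‖ ^ 2 ≤ e ^ 2 * (X k * Y k)) :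
    ‖∑ k ∈ s, a k‖ ^ 2 ≤ e ^ 2 * ((∑ k ∈ s, X k) * ∑ k ∈ s, Y k) := by
  refine (pow_le_pow_left₀ (norm_nonneg _) (norm_sum_le _ _) 2).trans ?_
  rw [← mul_assoc, Finset.mul_sum s X]
  exact Finset.sum_sq_le_sum_mul_sum_of_sq_le_mul s (fun k _ => mul_nonneg (sq_nonneg _) (hX k)) (fun k _ => hY k)
    fun k hk => (h k hk).trans_eq (by ring)

/-- direct sums (Cauchy-Schwarz) -/
theorem bdF_close (β : ι → κ) {A B : κ → Matrix ι ι ℂ} (hA : ∀ k, Sieg (A k)) (hB : ∀ k, Sieg (B k))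
    (h : ∀ k, Close e (A k) (B k)) : Close e (bdF β A) (bdF β B) := by
  intro x y
  rw [sub_mulVec, dotProduct_sub, bdF_form, bdF_form, ← Finset.sum_sub_distrib, bdF_imq, bdF_imq]
  refine ls_sum_sq _ (fun k => (hB k).2 _) (fun k => (hA k).2 _) fun k _ => ?_
  rw [← dotProduct_sub, ← sub_mulVec]
  exact h k _ _

theorem bdF_rel (β : ι → κ) {J A' : κ → Matrix ι ι ℂ} (h : ∀ k, Rel (J k) A (A' k))
    (hJ : ∀ k i j, J k i j ≠ 0 → β i = k ∧ β j = k) : Rel (∑ k, J k) (bdF β fun _ => A) (bdF β A') := by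
  have hs : ∀ {B : κ → Matrix ι ι ℂ}, (∀ k, (B k).IsSymm) → (bdF β B).IsSymm := fun {B} hB => by
    ext i j
    rw [transpose_apply, bdF_apply, bdF_apply]
    by_cases hij : β i = β j
    · rw [if_pos hij, if_pos hij.symm, hij, (hB _).apply]
    · rw [if_neg hij, if_neg (Ne.symm hij)]
  refine ⟨fun i j => by simp only [Matrix.sum_apply, star_sum, (h _).re i j], ?_, hs fun k => (h k).sA,
    hs fun k => (h k).sA', ?_⟩
  · rw [Matrix.IsSymm, transpose_sum]
    exact Finset.sum_congr rfl fun k _ => (h k).sJ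
  · ext i j
    have e1 : ∀ b, (bdF β A' * ∑ k, J k) i b = (A' (β i) * J (β i)) i b := fun b => by
      rw [mul_apply, mul_apply]
      refine Finset.sum_congr rfl fun a _ => ?_
      rw [bdF_apply, Matrix.sum_apply]
      split_ifs with ha
      · rw [Finset.sum_eq_single (β i) (fun k _ hk => by_contra fun hh => hk ((hJ k a b hh).1.symm.trans ha.symm))
          (by simp)]
      · rw [zero_mul, by_contra (p := J (β i) a b = 0) fun hh => ha (hJ _ a b hh).1.symm, mul_zero]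
    have e2 : ∀ b, β b ≠ β i → (A' (β i) * J (β i)) i b = 0 := fun b hb => by
      rw [mul_apply]
      exact Finset.sum_eq_zero fun a _ => by
        rw [by_contra (p := J (β i) a b = 0) fun hh => hb (hJ _ a b hh).2, mul_zero]
    rw [Matrix.add_apply, mul_apply, bdF_apply, bdF_apply]
    simp only [e1, bdF_apply]
    split_ifs with hij
    · rw [← congrFun (congrFun (h (β i)).eq i) j, Matrix.add_apply, mul_apply]
      congr 1
      refine Finset.sum_congr rfl fun b _ => ?_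
      split_ifs with hb
      · rfl
      · rw [e2 b (hij ▸ hb), zero_mul, zero_mul]
    · rw [zero_add]
      refine Finset.sum_eq_zero fun b _ => ?_
      split_ifs with hb
      · rw [e2 b fun hh => hij (hh.symm.trans hb), zero_mul]
      · rw [mul_zero]

/-- decoupled blocks: with `D = bdF β A`, `|xᵀ (A - D) y| ≤ K e √(D[x] D[y])`, hence `(1 - K e) D[y] ≤ A[y]` -/
theorem bdF_dcp (β : ι → κ) (hA : Sieg A) (he : 0 ≤ e) (hK : Fintype.card κ * e ≤ 1 / 2)
    (h : ∀ k l, k ≠ l → Dcp A e {i | β i = k} {i | β i = l}) :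
    Close (2 * Fintype.card κ * e) A (bdF β fun _ => A) := by
  set D := bdF β fun _ => A with hD
  have sD : Sieg D := bdF_sieg β fun _ => hA
  set K : ℝ := (Fintype.card κ : ℝ)
  have hK0 : 0 ≤ K := Nat.cast_nonneg _
  have h1 : ∀ x y, ‖x ⬝ᵥ (A - D) *ᵥ y‖ ^ 2 ≤ (K * e) ^ 2 * (imq D x * imq D y) := fun x y => by
    have hx : ∀ x : ι → ℂ, ∑ k, prj β k *ᵥ x = x := fun x => by
      ext i
      simp [prj_mulVec]
    have e1 : x ⬝ᵥ (A - D) *ᵥ y = ∑ p : κ × κ,
        if p.1 = p.2 then 0 else (prj β p.1 *ᵥ x) ⬝ᵥ A *ᵥ (prj β p.2 *ᵥ y) := by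
      rw [sub_mulVec, dotProduct_sub, hD, bdF_form, sub_eq_iff_eq_add, Fintype.sum_prod_type, ← Finset.sum_add_distrib]
      conv_lhs => rw [← hx x, ← hx y, sum_dotProduct]
      refine Finset.sum_congr rfl fun k _ => ?_
      rw [mulVec_sum, dotProduct_sum, ← Finset.add_sum_erase _ _ (Finset.mem_univ k),
        ← Finset.add_sum_erase _ _ (Finset.mem_univ k), if_pos rfl, zero_add, add_comm]
      congr 1
      exact Finset.sum_congr rfl fun l hl => (if_neg (Finset.ne_of_mem_erase hl).symm).symm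
    rw [e1]
    refine (ls_sum_sq (e := e) (X := fun p : κ × κ => imq A (prj β p.1 *ᵥ x)) (Y := fun p => imq A (prj β p.2 *ᵥ y)) _
      (fun _ => hA.2 _) (fun _ => hA.2 _) fun p _ => ?_).trans_eq ?_
    · split_ifs with hp
      · simpa using mul_nonneg (sq_nonneg e) (mul_nonneg (hA.2 _) (hA.2 _))
      · exact h _ _ hp _ _ (fun v hv => (prj_mulVec ..).trans (if_neg hv)) fun v hv => (prj_mulVec ..).trans (if_neg hv)
    · rw [Fintype.sum_prod_type, Fintype.sum_prod_type_right]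
      simp only [Finset.sum_const, Finset.card_univ, nsmul_eq_mul, ← Finset.mul_sum, hD, bdF_imq]
      ring
  intro x y
  have h2 : imq D y ≤ 2 * imq A y := by
    have h3 := h1 (star y) y
    rw [ls_imq_star sD.1, ← sq, ← mul_pow] at h3
    have h4 := (abs_le_of_sq_le_sq' h3 (mul_nonneg (by positivity) (sD.2 y))).2
    have h5 := (neg_abs_le _).trans' (neg_le_neg ((abs_im_le_norm _).trans h4))
    rw [sub_mulVec, dotProduct_sub, sub_im] at h5
    change _ ≤ imq A y - imq D y at h5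
    nlinarith [sD.2 y]
  refine (h1 x y).trans ?_
  have := sD.2 x
  have := hA.2 y
  calc _ ≤ (K * e) ^ 2 * (imq D x * (4 * imq A y)) := by gcongr; linarith
    _ = _ := by ring

/-- two probes -/
theorem ls_close_diag {A : Matrix (Fin 2) (Fin 2) ℂ} (hA : Sieg A) (he : 0 ≤ e) (he' : e ≤ 1 / 4)
    (h : ‖A 0 1‖ ^ 2 ≤ e ^ 2 * ((A 0 0).im * (A 1 1).im)) : Close (4 * e) A (diagonal fun i => A i i) := by
  have h1 : ∀ k l : Fin 2, ‖A k l‖ ^ 2 ≤ e ^ 2 * ((A k k).im * (A l l).im) → Dcp A e {i | id i = k} {i | id i = l} := by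
    intro k l h x y hx hy
    obtain ⟨a, rfl⟩ : ∃ a, x = Pi.single k a := ⟨x k, by
      ext i
      by_cases hi : i = k
      · rw [hi, Pi.single_eq_same]
      · rw [hx i hi, Pi.single_eq_of_ne hi]⟩
    obtain ⟨b, rfl⟩ : ∃ a, y = Pi.single l a := ⟨y l, by
      ext i
      by_cases hi : i = l
      · rw [hi, Pi.single_eq_same]
      · rw [hy i hi, Pi.single_eq_of_ne hi]⟩
    rw [ls_imq_single, ls_imq_single, single_dotProduct, mulVec_single]
    simp only [Pi.smul_apply, MulOpposite.smul_eq_mul_unop, MulOpposite.unop_op, col_apply, norm_mul]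
    calc _ = ‖a‖ ^ 2 * ‖b‖ ^ 2 * ‖A k l‖ ^ 2 := by ring
      _ ≤ ‖a‖ ^ 2 * ‖b‖ ^ 2 * (e ^ 2 * ((A k k).im * (A l l).im)) := by gcongr
      _ = _ := by ring
  have h2 := bdF_dcp (id : Fin 2 → Fin 2) hA he (by simp; linarith) fun k l hkl => h1 k l (by
    fin_cases k <;> fin_cases l
    · exact (hkl rfl).elim
    · exact h
    · rw [mul_comm (A _ _).im, hA.1.apply]
      exact h
    · exact (hkl rfl).elim)
  convert h2 using 1
  · simp; norm_num
  · ext i j
    rw [bdF_apply, diagonal_apply]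
    split_ifs with hij hij' <;> simp_all

end Crest.Agent.R166
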