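import Crest.Agent.R166.LS.Rel

/-! Row 166, block LS (owner helper10): resolvents of real symmetric matrices. -/

set_option autoImplicit false
set_option linter.unusedSectionVars false

open Complex Matrix
open scoped BigOperators

noncomputable section

namespace Crest.Agent.R166

variable {V ι : Type} [Fintype V] [DecidableEq V] [Fintype ι] [DecidableEq ι] {H : Matrix V V ℝ} {z z' : ℂ}

/-- complexification -/
abbrev cx {m n : Type} (H : Matrix m n ℝ) : Matrix m n ℂ := H.map fun x : ℝ => (x : ℂ)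

/-- squared Euclidean norm -/
def nq {V : Type} [Fintype V] (x : V → ℂ) : ℝ := ∑ v, ‖x v‖ ^ 2

theorem nq_nonneg (x : V → ℂ) : 0 ≤ nq x := Finset.sum_nonneg fun _ _ => sq_nonneg _

theorem nq_coord (x : V → ℂ) (v : V) : ‖x v‖ ^ 2 ≤ nq x :=
  Finset.single_le_sum (f := fun v => ‖x v‖ ^ 2) (fun _ _ => sq_nonneg _) (Finset.mem_univ v)

theorem nq_cs (x y : V → ℂ) : ‖x ⬝ᵥ y‖ ^ 2 ≤ nq x * nq y := by
  refine le_trans ?_ (Finset.sum_mul_sq_le_sq_mul_sq _ _ _)
  exact pow_le_pow_left₀ (norm_nonneg _) ((norm_sum_le _ _).trans_eq (by simp only [norm_mul])) 2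

theorem nq_star (x : V → ℂ) : star x ⬝ᵥ x = nq x := by
  simp [nq, dotProduct, conj_mul']

theorem cx_re {m n : Type} (H : Matrix m n ℝ) : IsRe (cx H) := fun _ _ => conj_ofReal _

theorem cx_symm (hH : H.IsSymm) : (cx H).IsSymm := hH.map _

theorem gr_imq (hH : H.IsSymm) (z : ℂ) (u : V → ℂ) : imq (cx H - z • 1) u = -(z.im * nq u) := by
  have := (cx_re H).imq_zero (cx_symm hH) u
  rw [imq] at this
  rw [imq, sub_mulVec, dotProduct_sub, sub_im, this, smul_mulVec, one_mulVec, dotProduct_smul, nq_star]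
  simp

theorem nq_eq_zero {x : V → ℂ} (h : nq x = 0) : x = 0 := by
  ext v
  exact norm_eq_zero.1 (pow_eq_zero_iff two_ne_zero |>.1 (le_antisymm (h ▸ nq_coord x v) (sq_nonneg _)))

theorem nq_single (v : V) : nq (Pi.single v (1 : ℂ)) = 1 := by
  rw [nq, Finset.sum_eq_single v (fun u _ hu => by simp [hu]) (by simp)]
  simp

theorem nq_norm (x : V → ℂ) (v : V) {a : ℝ} (ha : 0 ≤ a) (h : nq x ≤ a ^ 2) : ‖x v‖ ≤ a :=
  (abs_le_of_sq_le_sq' ((nq_coord x v).trans h) ha).2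

theorem gr_symm (hH : H.IsSymm) (z : ℂ) : (Gr H z).IsSymm := by
  rw [Matrix.IsSymm, Gr, transpose_nonsing_inv, ((cx_symm hH).sub (isSymm_one.smul z)).eq]

theorem gr_mul (hH : H.IsSymm) (hz : 0 < z.im) :
    (cx H - z • 1) * Gr H z = 1 ∧ Gr H z * (cx H - z • 1) = 1 := by
  have hu : IsUnit (cx H - z • 1) := by
    rw [← mulVec_injective_iff_isUnit, ← coe_mulVecLin, injective_iff_map_eq_zero]
    intro u hu
    have := gr_imq hH z u
    rw [imq, ← mulVecLin_apply, hu] at this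
    exact nq_eq_zero (by simpa [hz.ne'] using this)
  rw [isUnit_iff_isUnit_det] at hu
  exact ⟨mul_nonsing_inv _ hu, nonsing_inv_mul _ hu⟩

/-- Ward identity -/
theorem gr_ward (hH : H.IsSymm) (hz : 0 < z.im) (x : V → ℂ) : imq (Gr H z) x = z.im * nq (Gr H z *ᵥ x) := by
  have := gr_imq hH z (Gr H z *ᵥ x)
  rw [imq, mulVec_mulVec, (gr_mul hH hz).1, one_mulVec, star_dotProduct] at this
  rw [imq, ← neg_inj, ← this]
  simp

theorem gr_sieg (hH : H.IsSymm) (hz : 0 < z.im) : Sieg (Gr H z) :=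
  ⟨gr_symm hH z, fun x => gr_ward hH hz x ▸ mul_nonneg hz.le (nq_nonneg _)⟩

theorem gr_norm (hH : H.IsSymm) (hz : 0 < z.im) (x : V → ℂ) : z.im ^ 2 * nq (Gr H z *ᵥ x) ≤ nq x := by
  have h1 := nq_cs (star x) (Gr H z *ᵥ x)
  have h2 : nq (star x) = nq x := by simp [nq]
  have h3 := pow_le_pow_left₀ ((gr_sieg hH hz).2 x) ((le_abs_self _).trans (abs_im_le_norm _)) 2
  rw [gr_ward hH hz] at h3
  rcases (nq_nonneg (Gr H z *ᵥ x)).eq_or_lt with h | h
  · rw [← h, mul_zero]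
    exact nq_nonneg _
  · refine le_of_mul_le_mul_right ?_ h
    nlinarith

theorem gr_diag (hH : H.IsSymm) (hz : 0 < z.im) (v : V) : (Gr H z v v).im = z.im * nq fun u => Gr H z u v := by
  have := gr_ward hH hz (Pi.single v 1)
  rw [ls_imq_single, mulVec_single_one, norm_one, one_pow, one_mul] at this
  exact this

theorem gr_entry (hH : H.IsSymm) (hz : 0 < z.im) (u v : V) : ‖Gr H z u v‖ ≤ z.im⁻¹ := by
  have := gr_norm hH hz (Pi.single v 1)
  rw [nq_single, mulVec_single_one] at this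
  refine nq_norm ((Gr H z).col v) u (by positivity) ?_
  rw [inv_pow, inv_eq_one_div, le_div_iff₀' (by positivity)]
  exact this

theorem gr_pos (hH : H.IsSymm) (hz : 0 < z.im) (v : V) : 0 < (Gr H z v v).im ∧ ‖Gr H z v v‖ ≤ z.im⁻¹ := by
  refine ⟨?_, gr_entry hH hz v v⟩
  rw [gr_diag hH hz]
  refine mul_pos hz ((nq_nonneg _).lt_of_ne' fun h => ?_)
  have := congrFun (congrFun (gr_mul hH hz).1 v) v
  rw [mul_apply] at this
  simp [show ∀ u, Gr H z u v = 0 from congrFun (nq_eq_zero h)] at this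

theorem cx_pm (p : ι → V) (J : Matrix ι ι ℝ) : cx (pm ℝ p * J * (pm ℝ p)ᵀ) = pm ℂ p * cx J * (pm ℂ p)ᵀ := by
  ext u v
  simp [pm, mul_apply, apply_ite ((↑) : ℝ → ℂ)]

theorem pm_symm (p : ι → V) {J : Matrix ι ι ℝ} (hJ : J.IsSymm) : (pm ℝ p * J * (pm ℝ p)ᵀ).IsSymm := by
  rw [Matrix.IsSymm, transpose_mul, transpose_mul, transpose_transpose, hJ.eq, Matrix.mul_assoc]

/-- resolvent identity on probes -/
theorem gr_rel (hH : H.IsSymm) (hz : 0 < z.im) (p : ι → V) {J : Matrix ι ι ℝ} (hJ : J.IsSymm) :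
    Rel (cx J) ((Gr H z).submatrix p p) ((Gr (H + pm ℝ p * J * (pm ℝ p)ᵀ) z).submatrix p p) := by
  have h' := hH.add (pm_symm p hJ)
  rw [← pm_cmp, ← pm_cmp]
  refine Rel.cmp (cx_re J) (hJ.map _) (gr_symm hH z) (gr_symm h' z) ?_
  have e1 : cx (H + pm ℝ p * J * (pm ℝ p)ᵀ) - z • 1 = cx H - z • 1 + pm ℂ p * cx J * (pm ℂ p)ᵀ := by
    rw [← cx_pm]
    ext u v
    simp only [Matrix.sub_apply, Matrix.add_apply, map_apply, ofReal_add]
    ring
  have e2 := congrArg (· * Gr H z) (gr_mul h' hz).2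
  simp only [e1] at e2
  rwa [mul_add, add_mul, Matrix.mul_assoc, (gr_mul hH hz).1, mul_one, one_mul] at e2

theorem gr_blocks (hH : H.IsSymm) (hz : 0 < z.im) (d : ι → ℝ) :
    Gr (fromBlocks H 0 0 (diagonal d)) z = fromBlocks (Gr H z) 0 0 (diagonal fun i => ((d i : ℂ) - z)⁻¹) := by
  refine inv_eq_right_inv ?_
  have e1 : (fromBlocks H 0 0 (diagonal d)).map (fun x : ℝ => (x : ℂ)) - z • 1 =
      fromBlocks (cx H - z • 1) 0 0 (diagonal fun i => (d i : ℂ) - z) := by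
    ext (u | u) (v | v) <;> simp [one_apply, diagonal_apply]
    split_ifs <;> simp
  have e2 : ∀ i, (d i : ℂ) - z ≠ 0 := fun i h => hz.ne' (by simpa using congrArg im h)
  rw [e1, fromBlocks_multiply, (gr_mul hH hz).1, diagonal_mul_diagonal]
  simp [e2]

theorem gr_sub (hH : H.IsSymm) (hz : 0 < z.im) (hz' : 0 < z'.im) :
    Gr H z' - Gr H z = (z' - z) • (Gr H z * Gr H z') := by
  calc _ = Gr H z * (cx H - z • 1) * Gr H z' - Gr H z * ((cx H - z' • 1) * Gr H z') := by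
        rw [(gr_mul hH hz).2, (gr_mul hH hz').1, one_mul, mul_one]
    _ = _ := by
      simp only [mul_sub, sub_mul, mul_smul_comm, smul_mul_assoc, mul_one, one_mul, Matrix.mul_assoc, sub_smul]
      abel

theorem gr_close (hH : H.IsSymm) (hz : 0 < z.im) (hz' : 0 < z'.im) {γ : ℝ}
    (h : ‖z - z'‖ ^ 2 ≤ γ ^ 2 * (z.im * z'.im)) : Close γ (Gr H z') (Gr H z) := by
  intro x y
  rw [gr_sub hH hz hz', smul_mulVec, dotProduct_smul, ← mulVec_mulVec, dotProduct_mulVec, ← mulVec_transpose,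
    (gr_symm hH z).eq, norm_smul, mul_pow, norm_sub_rev, gr_ward hH hz, gr_ward hH hz']
  have := nq_nonneg (Gr H z *ᵥ x)
  have := nq_nonneg (Gr H z' *ᵥ y)
  calc _ ≤ γ ^ 2 * (z.im * z'.im) * (nq (Gr H z *ᵥ x) * nq (Gr H z' *ᵥ y)) := by
        gcongr
        exact nq_cs _ _
    _ = _ := by ring

/-- `G e = (1 - i η G) G' e` and `gr_norm` -/
theorem gr_mono2 (hH : H.IsSymm) (E : ℝ) {η : ℝ} (hη : 0 < η) (v : V) :
    (Gr H (E + η * I) v v).im ≤ 2 * (Gr H (E + (2 * η : ℝ) * I) v v).im := by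
  have hz : (E + η * I : ℂ).im = η := by simp
  have hz' : (E + (2 * η : ℝ) * I : ℂ).im = 2 * η := by simp
  have h1 := gr_sub hH (hz.symm ▸ hη) (hz'.symm ▸ (by positivity : 0 < 2 * η))
  have h2 := gr_norm hH (hz.symm ▸ hη) ((Gr H (E + (2 * η : ℝ) * I)).col v)
  rw [gr_diag hH (hz.symm ▸ hη), gr_diag hH (hz'.symm ▸ (by positivity : 0 < 2 * η)), hz']
  rw [hz] at h2 ⊢
  set G := Gr H (E + η * I)
  set G' := Gr H (E + (2 * η : ℝ) * I)
  have h3 : nq (fun u => G u v) ≤ 2 * nq (G'.col v) + 2 * (η ^ 2 * nq (G *ᵥ G'.col v)) := by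
    simp only [nq, Finset.mul_sum, ← Finset.sum_add_distrib]
    refine Finset.sum_le_sum fun u _ => ?_
    have e1 : G u v = G' u v - η * I * (G *ᵥ G'.col v) u := by
      have := congrFun (congrFun h1 u) v
      rw [Matrix.sub_apply, Matrix.smul_apply, smul_eq_mul] at this
      change _ = _ - _ * (G * G') u v
      push_cast at this
      linear_combination -this
    have e2 := norm_sub_le (G' u v) (η * I * (G *ᵥ G'.col v) u)
    rw [← e1, norm_mul, norm_mul, norm_I, norm_real, Real.norm_of_nonneg hη.le, mul_one] at e2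
    have := pow_le_pow_left₀ (norm_nonneg _) e2 2
    rw [col_apply]
    nlinarith [sq_nonneg (‖G' u v‖ - η * ‖(G *ᵥ G'.col v) u‖)]
  change _ ≤ 2 * (2 * η * nq (G'.col v))
  nlinarith

/-- `u = (λ - z) G u` -/
theorem gr_eig (hH : H.IsSymm) {E η lam : ℝ} {u : V → ℝ} (hη : 0 < η) (hu : H *ᵥ u = lam • u)
    (hl : |lam - E| ≤ η) (v : V) : u v ^ 2 ≤ 2 * η * (∑ x, u x ^ 2) * (Gr H (E + η * I) v v).im := by
  have hz : (E + η * I : ℂ).im = η := by simp
  have hz' : 0 < (E + η * I : ℂ).im := hz.symm ▸ hη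
  have h1 : (cx H - (E + η * I : ℂ) • 1) *ᵥ (fun x => (u x : ℂ)) = (lam - (E + η * I) : ℂ) • fun x => (u x : ℂ) := by
    ext x
    have := congrArg ((↑) : ℝ → ℂ) (congrFun hu x)
    simp only [mulVec, dotProduct, Pi.smul_apply, smul_eq_mul, ofReal_sum, ofReal_mul] at this
    rw [sub_mulVec, smul_mulVec, one_mulVec, sub_smul, Pi.sub_apply, Pi.sub_apply]
    congr 1
  have h2 := congrFun (congrArg (Gr H (E + η * I) *ᵥ ·) h1) v
  simp only [mulVec_mulVec, (gr_mul hH hz').2, one_mulVec, mulVec_smul, Pi.smul_apply, smul_eq_mul] at h2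
  have h3 : ‖(lam - (E + η * I) : ℂ)‖ ^ 2 ≤ 2 * η ^ 2 := by
    have := sq_le_sq' (abs_le.1 hl).1 (abs_le.1 hl).2
    simp only [Complex.sq_norm, normSq_apply, sub_re, sub_im, add_re, add_im, mul_re, mul_im, ofReal_re, ofReal_im,
      I_re, I_im]
    nlinarith
  have h4 := nq_cs (fun x => Gr H (E + η * I) x v) fun x => (u x : ℂ)
  have h5 : nq (fun x => (u x : ℂ)) = ∑ x, u x ^ 2 := by simp [nq]
  have h6 : (fun x => Gr H (E + η * I) x v) ⬝ᵥ (fun x => (u x : ℂ)) = (Gr H (E + η * I) *ᵥ fun x => (u x : ℂ)) v :=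
    Finset.sum_congr rfl fun x _ => congrArg (· * _) ((gr_symm hH _).apply v x)
  rw [h5, h6] at h4
  rw [gr_diag hH hz', hz, ← sq_abs, ← Real.norm_eq_abs, ← norm_real, h2, norm_mul, mul_pow]
  calc _ ≤ 2 * η ^ 2 * (nq (fun x => Gr H (E + η * I) x v) * ∑ x, u x ^ 2) := by gcongr
    _ = _ := by ring

/-- the `u`-th coordinate of `(H - z) G e_v = e_v` -/
theorem gr_large (hH : H.IsSymm) (hz : 0 < z.im) {K : ℝ} (hK : ∀ u, ∑ v, |H u v| ≤ K) (u v : V) :
    z.im ≤ (K + ‖z‖) ^ 2 * (Gr H z u u).im ∧ (u ≠ v → ‖Gr H z u v‖ ≤ K / z.im ^ 2) := by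
  have hK0 : 0 ≤ K := (Finset.sum_nonneg fun _ _ => abs_nonneg _).trans (hK u)
  have h1 : ∀ v a, 0 ≤ a → (∀ x, ‖Gr H z x v‖ ≤ a) → ‖z * Gr H z u v + (1 : Matrix V V ℂ) u v‖ ≤ K * a := by
    intro v a ha h
    have := congrFun (congrFun (gr_mul hH hz).1 u) v
    rw [sub_mul, smul_mul_assoc, one_mul, Matrix.sub_apply, Matrix.smul_apply, smul_eq_mul, sub_eq_iff_eq_add', mul_apply] at this
    rw [← this]
    refine (norm_sum_le _ _).trans ?_
    calc _ ≤ ∑ x, |H u x| * a := Finset.sum_le_sum fun x _ => by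
          rw [norm_mul, show cx H u x = H u x from rfl, norm_real, Real.norm_eq_abs]
          gcongr
          exact h x
      _ ≤ _ := by
        rw [← Finset.sum_mul]
        gcongr
        exact hK u
  constructor
  · obtain ⟨a, ha, e1⟩ : ∃ a, 0 ≤ a ∧ a ^ 2 = nq fun x => Gr H z x u :=
      ⟨_, Real.sqrt_nonneg _, Real.sq_sqrt (nq_nonneg _)⟩
    have h2 := fun x => nq_norm (fun x => Gr H z x u) x ha e1.ge
    have h3 := h1 u a ha h2
    have h4 := norm_sub_le (z * Gr H z u u + (1 : Matrix V V ℂ) u u) (z * Gr H z u u)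
    rw [add_sub_cancel_left, one_apply_eq, norm_one, norm_mul] at h4
    rw [one_apply_eq] at h3
    have h5 : 1 ≤ (K + ‖z‖) * a := by nlinarith [mul_le_mul_of_nonneg_left (h2 u) (norm_nonneg z)]
    rw [gr_diag hH hz, ← e1]
    nlinarith [mul_le_mul_of_nonneg_left (one_le_pow₀ (n := 2) h5) hz.le]
  · intro huv
    have h2 := h1 v _ (by positivity) fun x => gr_entry hH hz x v
    rw [one_apply_ne huv, add_zero, norm_mul, ← div_eq_mul_inv, le_div_iff₀ hz] at h2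
    rw [le_div_iff₀ (by positivity)]
    refine le_trans ?_ h2
    have := (le_abs_self _).trans (abs_im_le_norm z)
    calc _ = z.im * ‖Gr H z u v‖ * z.im := by ring
      _ ≤ _ := by gcongr

/-- `φ v = ∑ |b i v|²` for an orthonormal basis `b` of `W` -/
theorem ls_proj (W : Submodule ℂ (EuclideanSpace ℂ V)) : ∃ φ : V → ℝ, (∀ v, 0 ≤ φ v) ∧
    ∑ v, φ v = Module.finrank ℂ W ∧ ∀ w ∈ W, ∀ v, ‖w v‖ ^ 2 ≤ φ v * nq w.ofLp := by
  let b := stdOrthonormalBasis ℂ W
  refine ⟨fun v => nq fun i => (b i : EuclideanSpace ℂ V) v, fun v => nq_nonneg _, ?_, fun w hw v => ?_⟩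
  · simp only [nq]
    rw [Finset.sum_comm]
    simp [← EuclideanSpace.norm_sq_eq, ← Submodule.coe_norm, b.orthonormal.1]
  · have h1 := congrArg (fun x : W => (x : EuclideanSpace ℂ V) v) (b.sum_repr ⟨w, hw⟩)
    have h2 : nq (b.repr ⟨w, hw⟩).ofLp = nq w.ofLp := by
      simp [nq, ← EuclideanSpace.norm_sq_eq]
    rw [← h2, mul_comm]
    refine le_of_eq_of_le ?_ (nq_cs _ _)
    rw [← h1]
    simp [dotProduct]

theorem gr_phi (hH : H.IsSymm) (hz : 0 < z.im) (S : Finset V) : ∃ φ : V → ℝ, (∀ v, 0 ≤ φ v) ∧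
    ∑ v, φ v ≤ S.card / z.im ∧ ∀ x : V → ℂ, (∀ v, v ∉ S → x v = 0) →
      ∀ v, ‖(Gr H z *ᵥ x) v‖ ^ 2 ≤ φ v * imq (Gr H z) x := by
  let g : S → EuclideanSpace ℂ V := fun s => WithLp.toLp 2 ((Gr H z).col s)
  obtain ⟨φ, h0, h1, h2⟩ := ls_proj (Submodule.span ℂ (Set.range g))
  refine ⟨fun v => φ v / z.im, fun v => div_nonneg (h0 v) hz.le, ?_, fun x hx v => ?_⟩
  · rw [← Finset.sum_div, h1]
    gcongr
    exact (finrank_range_le_card g).trans_eq (Fintype.card_coe S)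
  · have h3 : WithLp.toLp 2 (Gr H z *ᵥ x) = ∑ s : S, x s • g s := by
      ext u
      simp only [g, mulVec, dotProduct, WithLp.ofLp_sum, WithLp.ofLp_smul, Finset.sum_apply, Pi.smul_apply, col_apply,
        smul_eq_mul]
      rw [Finset.sum_coe_sort S fun s => x s * Gr H z u s]
      simp only [mul_comm (x _)]
      exact (Finset.sum_subset (Finset.subset_univ S) fun s _ hs => by rw [hx s hs, mul_zero]).symm
    have := h2 (WithLp.toLp 2 (Gr H z *ᵥ x)) (h3 ▸ Submodule.sum_mem _ fun s _ =>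
      Submodule.smul_mem _ _ (Submodule.subset_span ⟨s, rfl⟩)) v
    rw [gr_ward hH hz, ← mul_assoc, div_mul_cancel₀ _ hz.ne']
    exact this

end Crest.Agent.R166
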