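import Crest.Agent.R166.LL.Iface

/-! Row 166, block LS (owner helper10): the Siegel calculus (`imq`, `Sieg`, `Close`). -/

set_option autoImplicit false
set_option linter.unusedSectionVars false

open Complex Matrix
open scoped BigOperators

noncomputable section

namespace Crest.Agent.R166

variable {ι κ : Type} [Fintype ι] [Fintype κ] {A B C : Matrix ι ι ℂ} {e e' : ℝ}

theorem ls_ratio {a b e : ℝ} (ha : 0 ≤ a) (hb : 0 ≤ b) (he : 0 ≤ e) (h : (a - b) ^ 2 ≤ e ^ 2 * (b * a)) :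
    a ≤ (1 + e) ^ 2 * b := by
  obtain ⟨x, hx, rfl⟩ : ∃ x, 0 ≤ x ∧ x ^ 2 = a := ⟨√a, Real.sqrt_nonneg _, Real.sq_sqrt ha⟩
  obtain ⟨y, hy, rfl⟩ : ∃ y, 0 ≤ y ∧ y ^ 2 = b := ⟨√b, Real.sqrt_nonneg _, Real.sq_sqrt hb⟩
  have h1 : x ^ 2 - y ^ 2 ≤ e * (x * y) :=
    le_trans (le_abs_self _) (abs_le_of_sq_le_sq' (by rw [sq_abs]; nlinarith) (by positivity)).2
  rw [← mul_pow]
  refine pow_le_pow_left₀ hx ?_ 2
  by_contra hc
  push Not at hc
  have : 0 < x := lt_of_le_of_lt (by positivity) hc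
  nlinarith [mul_nonneg he hy, mul_nonneg hy (sub_nonneg.2 hc.le), mul_pos this (sub_pos.2 hc),
    mul_nonneg (mul_nonneg he hy) hy]

theorem ls_comm (hA : A.IsSymm) (x y : ι → ℂ) : x ⬝ᵥ A *ᵥ y = y ⬝ᵥ A *ᵥ x := by
  rw [dotProduct_mulVec, ← mulVec_transpose, hA.eq, dotProduct_comm]

theorem ls_cmp (P Q : Matrix ι κ ℂ) (A : Matrix ι ι ℂ) (x y : κ → ℂ) :
    x ⬝ᵥ (Pᵀ * A * Q) *ᵥ y = (P *ᵥ x) ⬝ᵥ A *ᵥ (Q *ᵥ y) := by
  rw [← mulVec_mulVec, ← mulVec_mulVec, dotProduct_mulVec, vecMul_transpose]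

theorem ls_imq_star (hA : A.IsSymm) (x : ι → ℂ) : imq A (star x) = imq A x := by
  rw [imq, imq, star_star, ls_comm hA]

theorem ls_imq_single [DecidableEq ι] (A : Matrix ι ι ℂ) (i : ι) (a : ℂ) :
    imq A (Pi.single i a) = ‖a‖ ^ 2 * (A i i).im := by
  have : star a * (A i i * a) = (‖a‖ ^ 2 : ℝ) * A i i := by
    rw [← Complex.normSq_eq_norm_sq, Complex.normSq_eq_conj_mul_self]; simp; ring
  rw [imq, ← Pi.single_star, single_dotProduct, mulVec_single]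
  simp only [Pi.smul_apply, MulOpposite.smul_eq_mul_unop, MulOpposite.unop_op, col_apply]
  rw [this, im_ofReal_mul]

theorem Sieg.diag (h : Sieg A) (i : ι) : 0 ≤ (A i i).im := by
  classical
  simpa [ls_imq_single] using h.2 (Pi.single i 1)

/-- real matrices -/
def IsRe {m n : Type} (P : Matrix m n ℂ) : Prop := ∀ i j, star (P i j) = P i j

theorem IsRe.star_mulVec {P : Matrix ι κ ℂ} (h : IsRe P) (x : κ → ℂ) : star (P *ᵥ x) = P *ᵥ star x := by
  ext i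
  simp only [mulVec, dotProduct, Pi.star_apply, star_sum, star_mul', h i]

theorem IsRe.imq_cmp {P : Matrix ι κ ℂ} (h : IsRe P) (A : Matrix ι ι ℂ) (x : κ → ℂ) :
    imq (Pᵀ * A * P) x = imq A (P *ᵥ x) := by
  rw [imq, imq, ls_cmp, h.star_mulVec]

theorem IsRe.imq_zero (h : IsRe A) (hA : A.IsSymm) (x : ι → ℂ) : imq A x = 0 := by
  rw [imq, ← conj_eq_iff_im]
  change star (star x ⬝ᵥ A *ᵥ x) = _
  conv_rhs => rw [ls_comm hA, ← h.star_mulVec, dotProduct_star, dotProduct_comm]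

theorem Sieg.cmp (h : Sieg A) {P : Matrix ι κ ℂ} (hP : IsRe P) : Sieg (Pᵀ * A * P) := by
  refine ⟨?_, fun x => hP.imq_cmp A x ▸ h.2 _⟩
  rw [Matrix.IsSymm, transpose_mul, transpose_mul, transpose_transpose, h.1.eq, Matrix.mul_assoc]

theorem Close.cmp (h : Close e A B) {P : Matrix ι κ ℂ} (hP : IsRe P) : Close e (Pᵀ * A * P) (Pᵀ * B * P) := by
  intro x y
  rw [← Matrix.sub_mul, ← Matrix.mul_sub, ls_cmp, hP.imq_cmp, hP.imq_cmp]
  exact h _ _

/-- the matrix of a probe map -/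
def pm (R : Type) [Zero R] [One R] {V : Type} [DecidableEq V] (p : κ → V) : Matrix V κ R :=
  Matrix.of fun v i => if p i = v then 1 else 0

theorem pm_re [DecidableEq ι] (p : κ → ι) : IsRe (pm ℂ p) := by
  intro i j
  simp only [pm, of_apply]
  split_ifs <;> simp

theorem pm_cmp [DecidableEq ι] (p : κ → ι) (A : Matrix ι ι ℂ) : (pm ℂ p)ᵀ * A * pm ℂ p = A.submatrix p p := by
  ext i j
  simp [pm, mul_apply]

theorem Sieg.sub (h : Sieg A) (p : κ → ι) : Sieg (A.submatrix p p) := by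
  classical
  exact pm_cmp p A ▸ h.cmp (pm_re p)

theorem Close.sub (h : Close e A B) (p : κ → ι) : Close e (A.submatrix p p) (B.submatrix p p) := by
  classical
  exact pm_cmp p A ▸ pm_cmp p B ▸ h.cmp (pm_re p)

theorem Close.symm (h : Close e A B) (hA : Sieg A) (hB : Sieg B) : Close e B A := by
  intro x y
  rw [← neg_sub, neg_mulVec, dotProduct_neg, norm_neg, ls_comm (hA.1.sub hB.1), mul_comm (imq A x)]
  exact h y x

theorem Close.mono (h : Close e A B) (hA : Sieg A) (hB : Sieg B) (he : 0 ≤ e) (h' : e ≤ e') : Close e' A B := by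
  intro x y
  refine (h x y).trans ?_
  have := mul_nonneg (hB.2 x) (hA.2 y)
  gcongr

theorem Sieg.refl (hA : Sieg A) (e : ℝ) : Close e A A := by
  intro x y
  have := mul_nonneg (hA.2 x) (hA.2 y)
  simp only [sub_self, zero_mulVec, dotProduct_zero, norm_zero]
  nlinarith [sq_nonneg e, mul_nonneg (sq_nonneg e) this]

theorem Close.ratio (h : Close e A B) (hA : Sieg A) (hB : Sieg B) (he : 0 ≤ e) (x : ι → ℂ) :
    imq A x ≤ (1 + e) ^ 2 * imq B x := by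
  refine ls_ratio (hA.2 x) (hB.2 x) he ?_
  have h1 := h (star x) x
  rw [ls_imq_star hB.1] at h1
  refine le_trans ?_ h1
  have : imq A x - imq B x = (star x ⬝ᵥ (A - B) *ᵥ x).im := by
    rw [sub_mulVec, dotProduct_sub, sub_im, imq, imq]
  rw [this, ← sq_abs]
  exact pow_le_pow_left₀ (abs_nonneg _) (abs_im_le_norm _) 2

theorem ls_add_sq {a b : ℂ} {s t X : ℝ} (hs : 0 ≤ s) (ht : 0 ≤ t) (hX : 0 ≤ X) (ha : ‖a‖ ^ 2 ≤ s ^ 2 * X)
    (hb : ‖b‖ ^ 2 ≤ t ^ 2 * X) : ‖a + b‖ ^ 2 ≤ (s + t) ^ 2 * X := by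
  obtain ⟨x, hx, rfl⟩ : ∃ x, 0 ≤ x ∧ x ^ 2 = X := ⟨√X, Real.sqrt_nonneg _, Real.sq_sqrt hX⟩
  rw [← mul_pow] at *
  have h1 := (abs_le_of_sq_le_sq' ha (by positivity)).2
  have h2 := (abs_le_of_sq_le_sq' hb (by positivity)).2
  exact pow_le_pow_left₀ (norm_nonneg _) ((norm_add_le _ _).trans (by linarith)) 2

theorem Close.trans (h : Close e A B) (h' : Close e' B C) (hA : Sieg A) (hB : Sieg B) (hC : Sieg C)
    (he : 0 ≤ e) (he' : 0 ≤ e') : Close (e * (1 + e') + e' * (1 + e)) A C := by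
  intro x y
  rw [← sub_add_sub_cancel A B C, add_mulVec, dotProduct_add]
  refine ls_add_sq (by positivity) (by positivity) (mul_nonneg (hC.2 x) (hA.2 y)) ((h x y).trans ?_)
    ((h' x y).trans ?_)
  · have := h'.ratio hB hC he' x
    have := hA.2 y
    calc _ ≤ e ^ 2 * ((1 + e') ^ 2 * imq C x * imq A y) := by gcongr
      _ = _ := by ring
  · have := (h.symm hA hB).ratio hB hA he y
    have := hC.2 x
    calc _ ≤ e' ^ 2 * (imq C x * ((1 + e) ^ 2 * imq A y)) := by gcongr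
      _ = _ := by ring

theorem Close.entry (h : Close e A B) (i j : ι) : ‖A i j - B i j‖ ^ 2 ≤ e ^ 2 * ((B i i).im * (A j j).im) := by
  classical
  simpa [ls_imq_single] using h (Pi.single i 1) (Pi.single j 1)

theorem Close.diag (h : Close e A B) (hA : Sieg A) (hB : Sieg B) (he : 0 ≤ e) (i : ι) :
    (A i i).im ≤ (1 + e) ^ 2 * (B i i).im := by
  classical
  simpa [ls_imq_single] using h.ratio hA hB he (Pi.single i 1)

theorem Close.gam (h : Close e A B) (hA : Sieg A) (hB : Sieg B) (i : ι) : gam (A i i) (B i i) ≤ e ^ 2 := by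
  refine div_le_of_le_mul₀ (mul_nonneg (hA.diag i) (hB.diag i)) (sq_nonneg _) ?_
  rw [mul_comm (A i i).im]
  exact h.entry i i

/-- transfer of the decoupling of two probes -/
theorem Close.dec (h : Close e A B) (hA : Sieg A) (hB : Sieg B) (he : 0 ≤ e) (he' : 0 ≤ e') {i j : ι}
    (hd : ‖B i j‖ ^ 2 ≤ e' ^ 2 * ((B i i).im * (B j j).im)) :
    ‖A i j‖ ^ 2 ≤ (e' * (1 + e) ^ 2 + e * (1 + e)) ^ 2 * ((A i i).im * (A j j).im) := by
  have h1 := (h.symm hA hB).diag hB hA he i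
  have h2 := (h.symm hA hB).diag hB hA he j
  have := hA.diag i
  have := hA.diag j
  have := hB.diag i
  have := hB.diag j
  rw [← add_sub_cancel (B i j) (A i j)]
  refine ls_add_sq (by positivity) (by positivity) (by positivity) (hd.trans ?_) ((h.entry i j).trans ?_)
  · calc _ ≤ e' ^ 2 * ((1 + e) ^ 2 * (A i i).im * ((1 + e) ^ 2 * (A j j).im)) := by gcongr
      _ = _ := by ring
  · calc _ ≤ e ^ 2 * ((1 + e) ^ 2 * (A i i).im * (A j j).im) := by gcongr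
      _ = _ := by ring

/-- `hyp Y = 1 / Im Y + 1 / Im (-1 / Y)`, `gam` is invariant under `Y ↦ -1 / Y` -/
theorem ls_hyp {a b : ℂ} (ha : 0 < a.im) (hb : 0 < b.im) (he : 0 ≤ e) (h : gam a b ≤ e ^ 2) :
    hyp a ≤ (1 + e) ^ 2 * hyp b := by
  have ha' : 0 < ‖a‖ := ha.trans_le ((le_abs_self _).trans (abs_im_le_norm a))
  have hb' : 0 < ‖b‖ := hb.trans_le ((le_abs_self _).trans (abs_im_le_norm b))
  rw [gam, div_le_iff₀ (by positivity)] at h
  have h1 : b.im ≤ (1 + e) ^ 2 * a.im := by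
    refine ls_ratio hb.le ha.le he (le_trans ?_ h)
    rw [← sq_abs, abs_sub_comm, ← sub_im]
    exact pow_le_pow_left₀ (abs_nonneg _) (abs_im_le_norm _) 2
  have h2 : b.im * ‖a‖ ^ 2 ≤ (1 + e) ^ 2 * (a.im * ‖b‖ ^ 2) := by
    refine ls_ratio (by positivity) (by positivity) he ?_
    have e1 : b.im * ‖a‖ ^ 2 - a.im * ‖b‖ ^ 2 = -((a - b) * (starRingEnd ℂ) a * (starRingEnd ℂ) b).im := by
      simp only [Complex.sq_norm, normSq_apply, mul_im, mul_re, sub_re, sub_im, conj_re, conj_im]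
      ring
    rw [e1, neg_sq, ← sq_abs]
    refine (pow_le_pow_left₀ (abs_nonneg _) (abs_im_le_norm _) 2).trans ?_
    rw [norm_mul, norm_mul, RCLike.norm_conj, RCLike.norm_conj]
    calc _ = ‖a - b‖ ^ 2 * (‖a‖ ^ 2 * ‖b‖ ^ 2) := by ring
      _ ≤ e ^ 2 * (a.im * b.im) * (‖a‖ ^ 2 * ‖b‖ ^ 2) := by gcongr
      _ = _ := by ring
  rw [hyp, hyp, ← mul_div_assoc, div_le_div_iff₀ ha hb]
  nlinarith

theorem ls_two_le_hyp {a : ℂ} (ha : 0 < a.im) : 2 ≤ hyp a := by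
  rw [hyp, le_div_iff₀ ha]
  nlinarith [(le_abs_self _).trans (abs_im_le_norm a), sq_nonneg (‖a‖ - 1)]

theorem ls_imq_blocks (A : Matrix ι ι ℂ) (D : Matrix κ κ ℂ) (x : ι ⊕ κ → ℂ) :
    imq (fromBlocks A 0 0 D) x = imq A (x ∘ Sum.inl) + imq D (x ∘ Sum.inr) := by
  simp [imq, fromBlocks_mulVec, dotProduct, Fintype.sum_sum_type, Function.comp_def]

theorem Sieg.blocks (h : Sieg A) {D : Matrix κ κ ℂ} (hD : Sieg D) : Sieg (fromBlocks A 0 0 D) := by
  refine ⟨h.1.fromBlocks (by simp) hD.1, fun x => ?_⟩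
  rw [ls_imq_blocks]
  exact add_nonneg (h.2 _) (hD.2 _)

theorem Close.blocks (h : Close e A B) (hA : Sieg A) (hB : Sieg B) {D : Matrix κ κ ℂ} (hD : Sieg D) :
    Close e (fromBlocks A 0 0 D) (fromBlocks B 0 0 D) := by
  intro x y
  have e1 : x ⬝ᵥ (fromBlocks A 0 0 D - fromBlocks B 0 0 D) *ᵥ y = (x ∘ Sum.inl) ⬝ᵥ (A - B) *ᵥ (y ∘ Sum.inl) := by
    simp [sub_mulVec, fromBlocks_mulVec, dotProduct, Fintype.sum_sum_type, Function.comp_def, mul_sub]
  rw [e1, ls_imq_blocks, ls_imq_blocks]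
  refine (h _ _).trans ?_
  have := hA.2 (y ∘ Sum.inl)
  have := hB.2 (x ∘ Sum.inl)
  have := hD.2 (x ∘ Sum.inr)
  have := hD.2 (y ∘ Sum.inr)
  gcongr <;> linarith

theorem Dcp.mono {S S' T T' : Set ι} (h : Dcp A e S S') (hT : T ⊆ S) (hT' : T' ⊆ S') : Dcp A e T T' :=
  fun x y hx hy => h x y (fun v hv => hx v fun h => hv (hT h)) fun v hv => hy v fun h => hv (hT' h)

theorem Dcp.symm {S S' : Set ι} (h : Dcp A e S S') (hA : A.IsSymm) : Dcp A e S' S := fun x y hx hy => by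
  rw [ls_comm hA, mul_comm (imq A x)]
  exact h y x hy hx

end Crest.Agent.R166
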