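import Crest.Agent.R166.LS.Graph

/-! Row 166, block LS (owner helper10): `StStab`. -/

set_option autoImplicit false
set_option linter.unusedSectionVars false

open Complex Matrix
open scoped BigOperators

noncomputable section

namespace Crest.Agent.R166

variable {V : Type} [Fintype V] [DecidableEq V] {q : ℕ} {s T e ε : ℝ} {z : ℂ}

open Classical in
/-- number of indices satisfying `p` -/
def lsC {ι : Type} [Fintype ι] (p : ι → Prop) : ℝ := ∑ i, if p i then 1 else 0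

theorem lsC_nonneg {ι : Type} [Fintype ι] (p : ι → Prop) : 0 ≤ lsC p :=
  Finset.sum_nonneg fun _ _ => by split_ifs <;> norm_num

theorem lsC_le_card {ι : Type} [Fintype ι] (p : ι → Prop) : lsC p ≤ Fintype.card ι :=
  (Finset.sum_le_card_nsmul _ _ 1 fun _ _ => by split_ifs <;> norm_num).trans_eq (by simp)

theorem lsC_le {ι : Type} [Fintype ι] {p p' r : ι → Prop} (E : Finset ι) (h : ∀ i ∉ E, p i → p' i ∨ r i) :
    lsC p ≤ lsC p' + E.card + lsC r := by
  classical
  rw [show (E.card : ℝ) = ∑ i, if i ∈ E then 1 else 0 by simp, lsC, lsC, lsC, ← Finset.sum_add_distrib,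
    ← Finset.sum_add_distrib]
  refine Finset.sum_le_sum fun i _ => ?_
  have := h i
  split_ifs <;> first | (norm_num; done) | simp_all

theorem lsC_sum (p : HE (V ⊕ Fin 2) q → Prop) :
    lsC (fun h => p (inlH h)) ≤ lsC p ∧ lsC p ≤ lsC (fun h => p (inlH h)) + 2 * (q + 1) := by
  have h1 : lsC p = lsC (fun h => p (inlH h)) + lsC fun h : HE (Fin 2) q => p (Sum.inr h.1, h.2) := by
    simp only [lsC, Fintype.sum_prod_type, Fintype.sum_sum_type]
    rfl
  have h2 := lsC_le_card fun h : HE (Fin 2) q => p (Sum.inr h.1, h.2)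
  simp only [Fintype.card_prod, Fintype.card_fin, Nat.cast_mul, Nat.cast_add, Nat.cast_one, Nat.cast_ofNat] at h2
  exact ⟨h1 ▸ le_add_of_nonneg_right (lsC_nonneg _), h1 ▸ by linarith⟩

theorem ls_frac_eq (p : HE V q → Prop) : frac p = lsC p / (Fintype.card V * (q + 1)) := by
  rw [frac, avg, Fintype.card_prod, Fintype.card_fin, Nat.cast_mul, Nat.cast_succ, lsC]

theorem ls_div {n d a b X η : ℝ} (hn : 0 ≤ n) (hd : 0 < d) (h : a ≤ b + d * (X / (η * ε ^ 2))) :
    a / (n * d) ≤ b / (n * d) + X / (n * η * ε ^ 2) := by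
  refine (div_le_div_of_nonneg_right h (by positivity)).trans_eq ?_
  rw [add_div, mul_comm n d, mul_div_mul_left _ _ hd.ne', div_div]
  ring

theorem ls_one_le (hz : 0 < z.im) (hT : z.im ≤ T) (hT1 : 1 ≤ T) (hε : 0 < ε) (hε' : ε ≤ 1 / 20) :
    1 ≤ T ^ 3 / (z.im * ε ^ 2) := by
  rw [one_le_div (by positivity)]
  exact (mul_le_of_le_one_right hz.le (by nlinarith)).trans (hT.trans (le_self_pow₀ hT1 three_ne_zero))

theorem ls_stabC {W : Type} [Fintype W] [DecidableEq W] {H H' : Matrix W W ℝ} (hH : H.IsSymm) (hz : 0 < z.im)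
    {S : Finset W} (hΔ : Supp S (H' - H)) {k : ℝ} (hk : S.card ≤ k) (σ : Pairing V q) {f : V → W}
    (hf : Function.Injective f) (hT : 0 ≤ T) (hε : 0 < ε) (h1 : ε ≤ 1 / 20) (he : 0 ≤ e) (he' : e ≤ 1 / 20) :
    lsC (fun h : HE V q => goodM T e (Gr (H - eM (f h.1) (f (σ h).1)) z) (f h.1) (f (σ h).1) ∧
      ¬ Close (ε / 3) ((Gr (H' - eM (f h.1) (f (σ h).1)) z).submatrix ![f h.1, f (σ h).1] ![f h.1, f (σ h).1])
        ((Gr (H - eM (f h.1) (f (σ h).1)) z).submatrix ![f h.1, f (σ h).1] ![f h.1, f (σ h).1])) ≤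
      (q + 1) * (6000 * k * (T ^ 3 / (z.im * ε ^ 2))) := by
  have h2 : ∀ φ : W → ℝ, (∀ v, 0 ≤ φ v) → (q + 1) * ∑ v, φ (f v) ≤ (q + 1) * ∑ x, φ x := fun φ hφ => by
    rw [← Finset.sum_image (s := Finset.univ) (f := φ) hf.injOn]
    gcongr
    · exact fun _ _ _ => hφ _
    · exact Finset.subset_univ _
  refine (Finset.sum_le_sum fun h _ => ite_le_ite_of_imp id).trans ((ls_stab hH hz S hΔ (fun h : HE V q => f h.1)
    (fun h => f (σ h).1) (fun φ hφ => (ls_sum_fst fun v => φ (f v)).trans_le (h2 φ hφ))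
    (fun φ hφ => (ls_sum_snd σ fun v => φ (f v)).trans_le (h2 φ hφ)) (by positivity) hT hε (by linarith) he
    (by linarith)).trans ?_)
  rw [mul_div_assoc]
  gcongr

/-- `ls_stab`, `ls_switch_supp`, `ls_switch_of_ne`, `goodM.of_close` -/
theorem ls_stab_switch (c : Cfg V q) (hz : 0 < z.im) (hT : z.im ≤ T) (hT1 : 1 ≤ T) (he : 0 ≤ e) (he' : e ≤ 1 / 20)
    (hε : 0 < ε) (hε' : ε ≤ 1 / 20) (a b : HE V q) : bad s z ((1 + ε) * T) (e + ε) (switchC c a b) ≤
      bad s z T e c + 30000 * T ^ 3 / (Fintype.card V * z.im * ε ^ 2) := by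
  have h1 := ls_one_le hz hT hT1 hε hε'
  have h2 := ls_stabC (ls_Hm_symm s c) hz (ls_switch_supp s c a b) (k := 4) (by exact_mod_cast Finset.card_le_four) c.1
    Function.injective_id (by linarith) hε hε' he he' (T := T)
  have h3 : (({a, b, c.1 a, c.1 b} : Finset (HE V q)).card : ℝ) ≤ 4 := by exact_mod_cast Finset.card_le_four
  rw [bad, bad, ls_frac_eq, ls_frac_eq]
  refine ls_div (Nat.cast_nonneg _) (by positivity) ((lsC_le (p' := fun h => ¬ good s z T e c h)
    {a, b, c.1 a, c.1 b} fun h hh hb => ?_).trans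
    ((add_le_add (add_le_add le_rfl h3) h2).trans ?_))
  · simp only [Finset.mem_insert, Finset.mem_singleton, not_or] at hh
    rw [ls_good, show (switchC c a b).1 h = c.1 h from ls_switch_of_ne _ hh.1 hh.2.1 hh.2.2.1 hh.2.2.2] at hb
    rw [ls_good]
    exact or_iff_not_imp_left.2 fun hg => ⟨not_not.1 hg, fun hc => hb ((not_not.1 hg).of_close (ls_Hc_symm ..)
      (ls_Hc_symm ..) hz he (by linarith) hε.le (by linarith) hc)⟩
  · rw [mul_div_assoc]
    nlinarith [Nat.cast_nonneg (α := ℝ) q, mul_nonneg (Nat.cast_nonneg (α := ℝ) q) (zero_le_one.trans h1)]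

/-- `ls_stab` on `V ⊕ Fin 2` for `H = Hm c ⊕ diag`, `H' = Hm (glueC ..)` and with the roles exchanged;
`ls_eM_inl`, `gr_blocks` -/
theorem ls_stab_glue (hK : StKit) (c : Cfg V q) (hz : 0 < z.im) (hT : z.im ≤ T) (hT1 : 1 ≤ T) (he : 0 ≤ e)
    (he' : e ≤ 1 / 20) (hε : 0 < ε) (hε' : ε ≤ 1 / 20) (hn : 1 ≤ Fintype.card V) {α : Fin (q + 1) → HE V q}
    (w : Fin 2 → II) (hα : Disj c.1 α) :
    (frac fun h : HE V q => good s z T e c h ∧ ¬ gam (Yc s z (glueC c α w) (inlH h)) (Yc s z c h) ≤ ε ^ 2) ≤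
        30000 * (q + 1) * T ^ 3 / (Fintype.card V * z.im * ε ^ 2) ∧
      bad s z ((1 + ε) * T) (e + ε) (glueC c α w) ≤
        bad s z T e c + 30000 * (q + 1) * T ^ 3 / (Fintype.card V * z.im * ε ^ 2) ∧
      bad s z ((1 + ε) * T) (e + ε) c ≤
        bad s z T e (glueC c α w) + 30000 * (q + 1) * T ^ 3 / (Fintype.card V * z.im * ε ^ 2) := by
  have h1 := ls_one_le hz hT hT1 hε hε'
  have hq : (0 : ℝ) ≤ q := Nat.cast_nonneg _
  obtain ⟨S, hS, hΔ⟩ := ls_glue_supp (s := s) hK c w hα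
  have hS' : (S.card : ℝ) ≤ 2 * q + 4 := by exact_mod_cast hS
  set H₀ := fromBlocks (Hm s c) 0 0 (diagonal fun o => s * (w o : ℝ)) with hH₀
  have s0 : H₀.IsSymm := (ls_Hm_symm s c).fromBlocks (by simp) (isSymm_diagonal _)
  have h2 := ls_stabC s0 hz hΔ hS' c.1 Sum.inl_injective (by linarith) hε hε' he he' (T := T)
  have h3 := ls_stabC (ls_Hm_symm s _) hz (neg_sub (Hm s _) H₀ ▸ hΔ.neg) hS' c.1 Sum.inl_injective (by linarith) hε hε'
    he he' (T := T)
  let E := Finset.univ.image (Sum.elim α fun j => c.1 (α j))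
  have hE : (E.card : ℝ) ≤ 2 * (q + 1) := by
    exact_mod_cast Finset.card_image_le.trans_eq (by simp; ring)
  have e1 : ∀ h ∉ E, (glueC c α w).1 (inlH h) = inlH (c.1 h) := fun h hh =>
    (hK.glue_spec q V c.1 α hα).2.2 h fun j =>
      ⟨fun e => hh (Finset.mem_image.2 ⟨.inl j, Finset.mem_univ _, e.symm⟩),
        fun e => hh (Finset.mem_image.2 ⟨.inr j, Finset.mem_univ _, e.symm⟩)⟩
  have e2 : ∀ h : HE V q, Gr (H₀ - eM (.inl h.1) (.inl (c.1 h).1)) z = fromBlocks (Gc s z c h) 0 0 _ := fun h => by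
    rw [hH₀, ls_eM_inl, gr_blocks (ls_Hc_symm ..) hz, ls_Gc]
  have e3 : ∀ T e h, good s z T e c h ↔
      goodM T e (Gr (H₀ - eM (.inl h.1) (.inl (c.1 h).1)) z) (.inl h.1) (.inl (c.1 h).1) := fun T e h => by
    rw [e2, ls_good]
    rfl
  have e4 : ∀ T e, ∀ h ∉ E, good s z T e (glueC c α w) (inlH h) ↔ goodM T e
      (Gr (Hm s (glueC c α w) - eM (.inl h.1) (.inl (c.1 h).1)) z) (.inl h.1) (.inl (c.1 h).1) := fun T e h hh => by
    rw [ls_good, e1 h hh]
    rfl
  have hn' : (1 : ℝ) ≤ Fintype.card V := by exact_mod_cast hn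
  have hc : (Fintype.card (V ⊕ Fin 2) : ℝ) = Fintype.card V + 2 := by simp
  have fin : ∀ {a b : ℝ}, a ≤ b + 4 * (q + 1) + (q + 1) * (6000 * (2 * q + 4) * (T ^ 3 / (z.im * ε ^ 2))) →
      a / (Fintype.card V * (q + 1)) ≤ b / (Fintype.card V * (q + 1)) +
        30000 * (q + 1) * T ^ 3 / (Fintype.card V * z.im * ε ^ 2) := fun h => by
    refine ls_div (Nat.cast_nonneg _) (by positivity) (h.trans ?_)
    rw [mul_div_assoc, add_assoc, mul_comm 4, ← mul_add]
    gcongr
    nlinarith [mul_nonneg hq (zero_le_one.trans h1)]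
  simp only [bad, ls_frac_eq, hc]
  refine ⟨?_, ?_, ?_⟩
  · have h4 := (lsC_le (p := fun h : HE V q => good s z T e c h ∧
        ¬ gam (Yc s z (glueC c α w) (inlH h)) (Yc s z c h) ≤ ε ^ 2) (p' := fun _ => False) E fun h hh hb =>
      .inr ⟨(e3 ..).1 hb.1, fun hc => hb.2 (by
        have := hc.gam ((gr_sieg (ls_Hc_symm ..) hz).sub _) ((gr_sieg (s0.sub (eM_symm ..)) hz).sub _) 0
        rw [e2] at this
        rw [Yc, ls_Gc, e1 h hh]
        exact le_trans this (by nlinarith))⟩).trans (add_le_add le_rfl h2)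
    have := fin (b := 0) (h4.trans (by simp only [lsC, if_false, Finset.sum_const_zero]; linarith))
    rwa [zero_div, zero_add] at this
  · have h4 := (lsC_le (p := fun h => ¬ good s z ((1 + ε) * T) (e + ε) (glueC c α w) (inlH h))
        (p' := fun h => ¬ good s z T e c h) E fun h hh hb => or_iff_not_imp_left.2 fun hg =>
      ⟨(e3 ..).1 (not_not.1 hg), fun hc => hb ((e4 _ _ h hh).2 (((e3 ..).1 (not_not.1 hg)).of_close
        (s0.sub (eM_symm ..)) (ls_Hc_symm ..) hz he (by linarith) hε.le (by linarith) hc))⟩).trans (add_le_add le_rfl h2)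
    have h5 := (lsC_sum fun h => ¬ good s z ((1 + ε) * T) (e + ε) (glueC c α w) h).2
    refine le_trans ?_ (fin (by linarith))
    gcongr
    · exact lsC_nonneg _
    · linarith
  · have h4 := (lsC_le (p := fun h => ¬ good s z ((1 + ε) * T) (e + ε) c h)
        (p' := fun h => ¬ good s z T e (glueC c α w) (inlH h)) E fun h hh hb => or_iff_not_imp_left.2 fun hg =>
      ⟨(e4 _ _ h hh).1 (not_not.1 hg), fun hc => hb ((e3 ..).2 (((e4 _ _ h hh).1 (not_not.1 hg)).of_close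
        (ls_Hc_symm ..) (s0.sub (eM_symm ..)) hz he (by linarith) hε.le (by linarith) hc))⟩).trans (add_le_add le_rfl h3)
    have h5 := (lsC_sum fun h => ¬ good s z T e (glueC c α w) h).1
    have h6 := lsC_le_card fun h => ¬ good s z T e (glueC c α w) h
    rw [Fintype.card_prod, Fintype.card_fin, Nat.cast_mul, Nat.cast_succ, hc] at h6
    generalize lsC (fun h => ¬ good s z T e (glueC c α w) h) = b at h5 h6 ⊢
    refine (fin (b := b - 2 * (q + 1)) (by linarith)).trans (add_le_add_left ?_ _)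
    rw [div_le_div_iff₀ (by positivity) (by positivity)]
    nlinarith [mul_le_mul_of_nonneg_left h6 (by positivity : (0 : ℝ) ≤ q + 1)]

theorem stStab (hK : StKit) : StStab := fun q => ⟨30000 * (q + 1), fun s z V _ _ c T e ε hz hT hT1 he he' hε hε' hn =>
  ⟨fun _ w hα => ls_stab_glue hK c hz hT hT1 he he' hε hε' hn w hα, fun a b =>
    (ls_stab_switch c hz hT hT1 he he' hε hε' a b).trans (by
      gcongr
      nlinarith [Nat.cast_nonneg (α := ℝ) q])⟩⟩

end Crest.Agent.R166
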