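import Crest.Agent.R166.LS.Graph

/-! Row 166, block LS (owner helper10): `StW`, `StSW`, `StZC`. -/

set_option autoImplicit false
set_option linter.unusedSectionVars false

open Complex Matrix
open scoped BigOperators

noncomputable section

namespace Crest.Agent.R166

open Classical in
theorem ls_frac {V : Type} [Fintype V] {q : ℕ} {p : HE V q → Prop} {X η ε : ℝ}
    (h : (∑ h, if p h then (1 : ℝ) else 0) ≤ (q + 1) * (X / (η * ε ^ 2))) :
    frac p ≤ X / (Fintype.card V * η * ε ^ 2) := by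
  refine (div_le_div_of_nonneg_right h (Nat.cast_nonneg _)).trans_eq ?_
  rw [Fintype.card_prod, Fintype.card_fin, Nat.cast_mul, Nat.cast_succ, mul_comm (Fintype.card V : ℝ),
    mul_div_mul_left _ _ (by positivity), div_div]
  ring

theorem stW : StW := by
  refine ⟨40, fun q s z V _ _ c S T ε hz hT hε => ls_frac ?_⟩
  refine le_trans (Finset.sum_le_sum fun h _ => ite_le_ite_of_imp fun hh => ⟨(ls_good ..).1 hh.1, hh.2⟩)
    (ls_count (ls_Hm_symm s c) hz S (fun h : HE V q => h.1) (fun h => (c.1 h).1)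
      (fun φ _ => (ls_sum_fst φ).le) (fun φ _ => (ls_sum_snd c.1 φ).le) (by positivity) hT hε)

/-- `ls_repair`, `ls_two` twice, `Close.dec` -/
theorem stSW : StSW := by
  refine ⟨22, by norm_num, fun q s z V _ _ c a b ε hz h0 h1 hba hba' hD hD' => ?_⟩
  obtain ⟨e1, e2, e3⟩ := ls_repair (s := s) c hba hba'
  rw [ends, ends, e1, e2] at hD'
  have h2 := (ls_two (ls_Hm_symm s _) hz (Supp.eM (u := a.1) (v := b.1) (by simp) (by simp)).neg
    (Supp.eM (u := (c.1 a).1) (v := (c.1 b).1) (by simp) (by simp)).neg h0 (by linarith) hD').2 a.1 (by simp)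
    (c.1 a).1 (by simp)
  have h3 := (ls_two (ls_Hm_symm s c) hz (Supp.eM (u := b.1) (v := (c.1 b).1) (by simp [ends]) (by simp [ends])).neg
    (Supp.eM (u := a.1) (v := (c.1 a).1) (by simp [ends]) (by simp [ends])).neg h0 (by linarith)
    (hD.symm (gr_symm (ls_Hm_symm s c) z))).1 ![a.1, (c.1 a).1] (Fin.forall_fin_two.2 ⟨by simp [ends], by simp [ends]⟩)
  rw [e3] at h2
  have s1 := (gr_sieg (((ls_Hm_symm s c).add (eM_symm b.1 (c.1 b).1).neg).add (eM_symm a.1 (c.1 a).1).neg) hz).sub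
    ![a.1, (c.1 a).1]
  have s2 := (gr_sieg ((ls_Hm_symm s c).add (eM_symm a.1 (c.1 a).1).neg) hz).sub ![a.1, (c.1 a).1]
  have h4 := (h3.symm s1 s2).dec s2 s1 (by positivity) (by positivity) (i := 0) (j := 1) h2
  have h5 := mul_nonneg (s2.diag 0) (s2.diag 1)
  rw [← sub_eq_add_neg] at h4 h5
  rw [ls_dec]
  refine h4.trans (mul_le_mul_of_nonneg_right (pow_le_pow_left₀ (by positivity) ?_ 2) h5)
  nlinarith [mul_nonneg h0 h0, mul_nonneg h0 (mul_nonneg h0 h0), mul_le_mul_of_nonneg_left h1 (mul_nonneg h0 h0)]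

/-- `gr_large` with `K = q + 4` (`ls_row`), `gr_pos`; `|z| ≤ Im z + 2 √q` -/
theorem ls_base (q : ℕ) (e : ℝ) (he : 0 < e) : ∃ M₁ : ℝ, 1 ≤ M₁ ∧ ∀ (s : ℝ) (z : ℂ) (V : Type) [Fintype V]
    [DecidableEq V] (c : Cfg V q) (h : HE V q), 0 ≤ s → s ≤ 1 → M₁ ≤ z.im → |z.re| ≤ 2 * √(q : ℝ) →
    (c.1 h).1 ≠ h.1 → good s z (3 * z.im) e c h := by
  have hq : (0 : ℝ) ≤ q := Nat.cast_nonneg _
  have h0 : 0 ≤ 5 * (q + 4 + 2 * √(q : ℝ)) := by positivity
  have h0' : 0 ≤ 2 * (q + 4) / e := by positivity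
  refine ⟨1 + 5 * (q + 4 + 2 * √(q : ℝ)) + 2 * (q + 4) / e, by linarith, fun s z V _ _ c h hs hs' hz hre hh => ?_⟩
  have h1 : 1 ≤ z.im := by linarith
  have hz0 : 0 < z.im := by linarith
  have h2 : (q + 4 + ‖z‖) ^ 2 ≤ (6 / 5 * z.im) ^ 2 := by
    have := norm_le_abs_re_add_abs_im z
    rw [abs_of_pos hz0] at this
    gcongr
    linarith
  have h3 : 2 * (q + 4) ≤ z.im * e := (div_le_iff₀ he).1 (by linarith)
  have hH := ls_Hc_symm s c h.1 (c.1 h).1
  have hL := gr_large hH hz0 (ls_row hs hs' c h.1 (c.1 h).1)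
  rw [ls_good]
  set G := Gr (Hm s c - eM h.1 (c.1 h).1) z
  have h4 : ∀ u, 1 ≤ 3 / 2 * z.im * (G u u).im := fun u => by
    have := (gr_pos hH hz0 u).1
    refine le_of_mul_le_mul_left ((mul_one _).le.trans ((hL u u).1.trans ?_)) hz0
    nlinarith [mul_le_mul_of_nonneg_right h2 this.le, mul_pos (mul_pos hz0 hz0) this]
  have h5 : ∀ u, hyp (G u u) ≤ 3 * z.im := fun u => by
    have := (gr_pos hH hz0 u).2.trans (inv_le_one_of_one_le₀ h1)
    rw [hyp, div_le_iff₀ (gr_pos hH hz0 u).1]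
    nlinarith [h4 u, norm_nonneg (G u u)]
  refine ⟨?_, h5 _, h5 _⟩
  have h6 := (hL h.1 (c.1 h).1).2 hh.symm
  rw [le_div_iff₀ (by positivity)] at h6
  have h7 : 2 * z.im * ‖G h.1 (c.1 h).1‖ ≤ e := le_of_mul_le_mul_left (by nlinarith) hz0
  have h8 := one_le_mul_of_one_le_of_one_le (h4 h.1) (h4 (c.1 h).1)
  have h9 := pow_le_pow_left₀ (by positivity) h7 2
  have := mul_pos (gr_pos hH hz0 h.1).1 (gr_pos hH hz0 (c.1 h).1).1
  refine le_of_mul_le_mul_left ?_ (by positivity : 0 < 4 * z.im ^ 2)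
  nlinarith [mul_le_mul_of_nonneg_left h8 (sq_nonneg e), mul_pos (mul_pos (sq_pos_of_pos he) (sq_pos_of_pos hz0)) this]

/-- bounded and close -/
def lsN (ε k : ℝ) (a a' : ℂ) : Prop := ‖a‖ ≤ k ∧ ‖a'‖ ≤ k ∧ ‖a - a'‖ ≤ k * ε

theorem lsN.mono {ε k l : ℝ} {a a' : ℂ} (h : lsN ε k a a') (hε : 0 ≤ ε) (hl : k ≤ l) : lsN ε l a a' :=
  ⟨h.1.trans hl, h.2.1.trans hl, h.2.2.trans (by gcongr)⟩

theorem lsN.neg {ε k : ℝ} {a a' : ℂ} (h : lsN ε k a a') : lsN ε k (-a) (-a') := by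
  rwa [lsN, norm_neg, norm_neg, neg_sub_neg, norm_sub_rev]

theorem lsN.add {ε k l : ℝ} {a a' b b' : ℂ} (h : lsN ε k a a') (h' : lsN ε l b b') :
    lsN ε (k + l) (a + b) (a' + b') :=
  ⟨norm_add_le_of_le h.1 h'.1, norm_add_le_of_le h.2.1 h'.2.1, by
    rw [add_sub_add_comm, add_mul]
    exact norm_add_le_of_le h.2.2 h'.2.2⟩

theorem lsN.mul {ε k l : ℝ} {a a' b b' : ℂ} (h : lsN ε k a a') (h' : lsN ε l b b') :
    lsN ε (2 * (k * l)) (a * b) (a' * b') := by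
  have hk := (norm_nonneg _).trans h.1
  have hl := (norm_nonneg _).trans h'.1
  have := mul_nonneg hk hl
  refine ⟨(norm_mul_le_of_le h.1 h'.1).trans (by linarith), (norm_mul_le_of_le h.2.1 h'.2.1).trans (by linarith), ?_⟩
  rw [show a * b - a' * b' = a * (b - b') + (a - a') * b' by ring]
  exact (norm_add_le_of_le (norm_mul_le_of_le h.1 h'.2.2) (norm_mul_le_of_le h.2.2 h'.2.1)).trans_eq (by ring)

/-- `B = GamS s z a m`: `|A y y| ≤ (1 + ε)² |B y y|` (`Close.entry`, `ls_ratio` for the norms).  For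
`ε ≤ 1 / (2 T)`, `T ≥ 1`: `Im m ≥ 1 / (2 T)`, `R = 2 T + 1` bounds `|m|, |m'|, |Ψ|, |Ψ'|`,
`|Ψ - Ψ'| ≤ (q + 2) R² ε`. -/
theorem ls_entry (q : ℕ) (T δ : ℝ) (hδ : 0 < δ) : ∃ ε : ℝ, 0 < ε ∧ ∀ (s : ℝ) (z z' : ℂ) (a : II)
    (m m' : Fin (q + 1) → ℂ) (A : Matrix (SI q) (SI q) ℂ), 0 < z.im → 0 < z'.im → ‖z - z'‖ ≤ ε →
    (∀ j, 0 < (m' j).im ∧ hyp (m' j) ≤ T ∧ ‖m j - m' j‖ ≤ ε) → Close ε A (GamS s z a m) →
    ∀ x y, ‖A x y - GamS s z' a m' x y‖ ≤ δ := by
  rcases le_total T 1 with hT | hT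
  · refine ⟨1, one_pos, fun s z z' a m m' A _ _ _ hm => ?_⟩
    linarith [(ls_two_le_hyp (hm 0).1).trans (hm 0).2.1]
  have hq : (0 : ℝ) ≤ q := Nat.cast_nonneg _
  obtain ⟨L, hL⟩ : ∃ L : ℝ, L = (q + 2) * (2 * T) ^ 2 := ⟨_, rfl⟩
  have hL1 : 2 * T ≤ L := by nlinarith [mul_nonneg hq (sq_nonneg T)]
  have hL0 : 1 ≤ L := by linarith
  refine ⟨min (2 * T)⁻¹ (δ / (15 * L ^ 3)), by positivity, fun s z z' a m m' A hz hz' hzz hm hc x y => ?_⟩
  have e0 : 0 < min (2 * T)⁻¹ (δ / (15 * L ^ 3)) := by positivity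
  have e1 := min_le_left (2 * T)⁻¹ (δ / (15 * L ^ 3))
  have e2 := (le_div_iff₀ (by positivity)).1 (min_le_right (2 * T)⁻¹ (δ / (15 * L ^ 3)))
  generalize min (2 * T)⁻¹ (δ / (15 * L ^ 3)) = ε at *
  have e3 : ε ≤ 1 := e1.trans (inv_le_one_of_one_le₀ (by linarith))
  have h1 : ∀ j, 2 * (2 * T)⁻¹ ≤ (m' j).im ∧ ‖m' j‖ ≤ T := fun j => by
    obtain ⟨h1, h2⟩ := ls_of_hyp (hm j).1 (hm j).2.1
    constructor
    · rw [mul_inv, ← mul_assoc, mul_inv_cancel₀ two_ne_zero, one_mul, inv_le_iff_one_le_mul₀' (by linarith)]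
      nlinarith [sq_nonneg ‖m' j‖]
    · exact (abs_le_of_sq_le_sq' (by nlinarith) (by linarith)).2
  have h2 : ∀ j, (2 * T)⁻¹ ≤ (m j).im := fun j => by
    have := (abs_le.1 ((abs_im_le_norm _).trans (hm j).2.2)).1
    rw [sub_im] at this
    linarith [(h1 j).1]
  have hN : ∀ j, lsN ε L (m j) (m' j) := fun j =>
    ⟨by linarith [norm_sub_norm_le (m j) (m' j), (h1 j).2, (hm j).2.2], by linarith [(h1 j).2],
      (hm j).2.2.trans (le_mul_of_one_le_left e0.le hL0)⟩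
  have hi : 0 < (2 * T)⁻¹ := by positivity
  have h3 : ∀ (z : ℂ) (m : Fin (q + 1) → ℂ), 0 < z.im → (∀ j, (2 * T)⁻¹ ≤ (m j).im) →
      z - s * (a : ℝ) + ∑ j, m j ≠ 0 ∧ ‖Psi s z a m‖ ≤ 2 * T := fun z m hz hm => by
    have : (2 * T)⁻¹ ≤ ‖z - s * (a : ℝ) + ∑ j, m j‖ := by
      refine le_trans ?_ ((le_abs_self _).trans (abs_im_le_norm _))
      have := Finset.single_le_sum (f := fun j => (m j).im) (fun j _ => hi.le.trans (hm j)) (Finset.mem_univ 0)
      simp only [add_im, sub_im, mul_im, ofReal_re, ofReal_im, im_sum]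
      linarith [hm 0]
    exact ⟨norm_pos_iff.1 (hi.trans_le this), by
      rw [Psi, norm_neg, norm_inv]
      exact inv_le_of_inv_le₀ (by positivity) this⟩
  obtain ⟨n1, b1⟩ := h3 z m hz h2
  obtain ⟨n2, b2⟩ := h3 z' m' hz' fun j => by linarith [(h1 j).1]
  have hP : lsN ε L (Psi s z a m) (Psi s z' a m') := by
    refine ⟨b1.trans hL1, b2.trans hL1, ?_⟩
    have : Psi s z a m - Psi s z' a m' = (z - z' + ∑ j, (m j - m' j)) * (Psi s z a m * Psi s z' a m') := by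
      rw [Psi, Psi, Finset.sum_sub_distrib]
      field_simp
      ring
    rw [this]
    refine (norm_mul_le_of_le (norm_add_le_of_le hzz (norm_sum_le_of_le _ fun j _ => (hm j).2.2))
      (norm_mul_le_of_le b1 b2)).trans_eq ?_
    simp [hL]
    ring
  have hL2 : L ≤ L ^ 2 := by nlinarith
  have hL3 : L ^ 2 ≤ L ^ 3 := by nlinarith
  have hG : ∀ x y, lsN ε (5 * L ^ 3) (GamS s z a m x y) (GamS s z' a m' x y) := by
    rintro (_ | i) (_ | j)
    · exact hP.mono e0.le (by nlinarith)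
    · exact ((hN j).mul hP).neg.mono e0.le (by nlinarith)
    · exact ((hN i).mul hP).neg.mono e0.le (by nlinarith)
    · have : lsN ε L (if i = j then m i else 0) (if i = j then m' i else 0) := by
        split_ifs
        · exact hN i
        · simp only [lsN, sub_self, norm_zero]
          exact ⟨by positivity, by positivity, by positivity⟩
      exact (this.add (((hN i).mul (hN j)).mul hP)).mono e0.le (by nlinarith)
  have h4 : ∀ x y, ‖A x y - GamS s z a m x y‖ ^ 2 ≤ ε ^ 2 * (‖GamS s z a m x x‖ * ‖A y y‖) := fun x y => by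
    refine (hc.entry x y).trans (mul_le_mul_of_nonneg_left ((le_abs_self _).trans ?_) (sq_nonneg _))
    rw [abs_mul]
    gcongr <;> exact abs_im_le_norm _
  have h5 : ‖A y y‖ ≤ 4 * (5 * L ^ 3) := by
    refine (ls_ratio (norm_nonneg _) (norm_nonneg _) e0.le (le_trans ?_ (h4 y y))).trans ?_
    · rw [← sq_abs]
      exact pow_le_pow_left₀ (abs_nonneg _) (abs_norm_sub_norm_le _ _) 2
    · gcongr
      · nlinarith
      · exact (hG y y).1
  have h6 : ‖A x y - GamS s z a m x y‖ ≤ ε * (10 * L ^ 3) := by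
    refine (abs_le_of_sq_le_sq' ((h4 x y).trans ?_) (by positivity)).2
    calc _ ≤ ε ^ 2 * (5 * L ^ 3 * (4 * (5 * L ^ 3))) := by
          gcongr
          exact (hG x x).1
      _ = _ := by ring
  linarith [norm_sub_le_norm_sub_add_norm_sub (A x y) (GamS s z a m x y) (GamS s z' a m' x y), (hG x y).2.2]

theorem stZC : StZC := by
  refine ⟨fun q s z V _ _ c h hz => gr_pos (ls_Hc_symm s c _ _) hz _, fun q s z V _ _ c v hz => gr_pos (ls_Hm_symm s c) hz v,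
    fun q s z z' V _ _ c h e γ hz hz' he he' hγ hγ' hzz => ?_, fun q s E η V _ _ c v hη => gr_mono2 (ls_Hm_symm s c) E hη v,
    fun q s E η lam V _ _ c u v hη hu hl => gr_eig (ls_Hm_symm s c) hη hu hl v, ls_base,
    fun V _ _ A z ε S S' hA h => h.symm (gr_symm (by simpa [Matrix.IsHermitian, Matrix.IsSymm] using hA) z), fun q M T δ hδ => ?_⟩
  · have hH := ls_Hc_symm s c h.1 (c.1 h).1
    have hc := gr_close hH hz hz' hzz
    have s1 := gr_sieg hH hz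
    have s2 := gr_sieg hH hz'
    refine ⟨hc.gam s2 s1 _, fun hd => ?_⟩
    rw [ls_dec] at hd ⊢
    refine (hc.dec s2 s1 hγ he hd).trans (mul_le_mul_of_nonneg_right (pow_le_pow_left₀ (by positivity) ?_ 2)
      (mul_nonneg (s2.diag _) (s2.diag _)))
    nlinarith [mul_nonneg he hγ, mul_nonneg hγ hγ]
  · obtain ⟨ε, hε, h⟩ := ls_entry q T δ hδ
    exact ⟨ε, hε, fun s z z' a m m' A _ _ hz _ hz' hzz hm _ hc => h s z z' a m m' A hz hz' hzz (fun j => (hm j).2) hc⟩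

end Crest.Agent.R166
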